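import Mathlib

/-!
Statement definitions for the row-star chain graphs: a chain of blocks built on one initial vertex.
A list `L` of pairs `(m, s)`, latest block first, describes a natural unit interval graph.
-/

namespace Vale.Agent.Lib.P066H

open Finset

/-- Index of the last vertex of the chain (vertices are `0, 1, ..., chainLast L`). The empty list is
the graph with the single vertex `0`, and a pair `(m, s)` adds `m` new vertices. -/
def chainLast : List (ℕ × ℕ) → ℕ
  | [] => 0
  | (m, _) :: L => chainLast L + m

/-- Hessenberg function, with vertices counted from `0`: the edges are the pairs `i < j ≤ h i`.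
A pair `(m, s)` adds `m` new vertices forming a clique, and joins the previous last vertex
`chainLast L` to the first `s` of them. -/
def hChain : List (ℕ × ℕ) → ℕ → ℕ
  | [], v => v
  | (m, s) :: L, v =>
    if v < chainLast L then hChain L v
    else if v = chainLast L then v + s
    else if v < chainLast L + m then chainLast L + m
    else v

/-- Each block has `m ≥ 1` new vertices and `s ≤ m` attaching edges. -/
def ValidChain : List (ℕ × ℕ) → Prop
  | [] => True
  | (m, s) :: L => ValidChain L ∧ 1 ≤ m ∧ s ≤ m

/-- Proper colourings of the graph with edges `i < j ≤ h i`. -/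
def IsProperCol (h : ℕ → ℕ) {n N : ℕ} (f : Fin n → Fin N) : Prop :=
  ∀ i j : Fin n, i < j → (j : ℕ) ≤ h i → f i ≠ f j

/-- Number of edges `i < j ≤ h i` with `f i < f j`. -/
def ascCount (h : ℕ → ℕ) {n N : ℕ} (f : Fin n → Fin N) : ℕ :=
  (univ.filter fun p : Fin n × Fin n =>
    p.1 < p.2 ∧ (p.2 : ℕ) ≤ h p.1 ∧ f p.1 < f p.2).card

open Classical in
/-- The chromatic quasisymmetric function of the graph on `n` vertices given by `h`, in the
`N` variables `x_0, ..., x_(N-1)`, with coefficients in `ℤ[q]`. -/
noncomputable def chromQ (h : ℕ → ℕ) (n N : ℕ) : MvPolynomial (Fin N) (Polynomial ℤ) :=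
  ∑ f : Fin n → Fin N,
    if IsProperCol h f then
      MvPolynomial.C (Polynomial.X ^ ascCount h f) * ∏ i, MvPolynomial.X (f i)
    else 0

end Vale.Agent.Lib.P066H
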