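import Vale.Agent.Lib.P066H.Clique
import Vale.Agent.Lib.P066H.Defs

/-!
Factorization of the colouring sum along a chain of blocks.
-/

set_option linter.unusedSectionVars false

namespace Vale.Agent.Lib.P066H

open Finset

section hchain

lemma hChain_lt_of_lt (m s : ℕ) (L : List (ℕ × ℕ)) (v : ℕ) (h : v < chainLast L) :
    hChain ((m, s) :: L) v = hChain L v := by
  simp [hChain, h]

lemma hChain_cut (m s : ℕ) (L : List (ℕ × ℕ)) :
    hChain ((m, s) :: L) (chainLast L) = chainLast L + s := by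
  simp [hChain]

lemma hChain_block (m s : ℕ) (L : List (ℕ × ℕ)) (v : ℕ) (h1 : chainLast L < v)
    (h2 : v < chainLast L + m) : hChain ((m, s) :: L) v = chainLast L + m := by
  have h3 : ¬ v < chainLast L := by omega
  have h4 : ¬ v = chainLast L := by omega
  simp [hChain, h3, h4, h2]

lemma hChain_end (m s : ℕ) (L : List (ℕ × ℕ)) (v : ℕ) (h1 : chainLast L < v)
    (h2 : chainLast L + m ≤ v) : hChain ((m, s) :: L) v = v := by
  have h3 : ¬ v < chainLast L := by omega
  have h4 : ¬ v = chainLast L := by omega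
  have h5 : ¬ v < chainLast L + m := by omega
  simp [hChain, h3, h4, h5]

/-- `h` is a Hessenberg function: `i ≤ h i ≤ last`, and weakly increasing. -/
theorem hChain_spec : ∀ L : List (ℕ × ℕ), ValidChain L →
    (∀ v, v ≤ chainLast L → v ≤ hChain L v ∧ hChain L v ≤ chainLast L) ∧
    (∀ u v, u ≤ v → v ≤ chainLast L → hChain L u ≤ hChain L v)
  | [], _ => by
    constructor
    · intro v hv
      simp [hChain]
      simpa [chainLast] using hv
    · intro u v huv _
      simpa [hChain] using huv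
  | (m, s) :: L, hL => by
    obtain ⟨hL', hm, hs⟩ := hL
    obtain ⟨h1, h2⟩ := hChain_spec L hL'
    have hlast : chainLast ((m, s) :: L) = chainLast L + m := rfl
    constructor
    · intro v hv
      rw [hlast] at hv ⊢
      rcases lt_trichotomy v (chainLast L) with h | h | h
      · rw [hChain_lt_of_lt _ _ _ _ h]
        have := h1 v h.le
        omega
      · subst h
        rw [hChain_cut]
        omega
      · by_cases h5 : v < chainLast L + m
        · rw [hChain_block _ _ _ _ h h5]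
          omega
        · rw [hChain_end _ _ _ _ h (by omega)]
          omega
    · intro u v huv hv
      rw [hlast] at hv
      have hub : ∀ w, w < chainLast L → hChain L w ≤ chainLast L := fun w hw => (h1 w hw.le).2
      rcases lt_trichotomy v (chainLast L) with h | h | h
      · rw [hChain_lt_of_lt _ _ _ _ h, hChain_lt_of_lt _ _ _ _ (lt_of_le_of_lt huv h)]
        exact h2 u v huv h.le
      · subst h
        rw [hChain_cut]
        rcases Nat.lt_or_ge u (chainLast L) with h3 | h3
        · rw [hChain_lt_of_lt _ _ _ _ h3]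
          have := hub u h3
          omega
        · have : u = chainLast L := by omega
          subst this
          rw [hChain_cut]
      · have hv' : hChain ((m, s) :: L) v = chainLast L + m := by
          by_cases h5 : v < chainLast L + m
          · exact hChain_block _ _ _ _ h h5
          · rw [hChain_end _ _ _ _ h (by omega)]
            omega
        rw [hv']
        rcases lt_trichotomy u (chainLast L) with h3 | h3 | h3
        · rw [hChain_lt_of_lt _ _ _ _ h3]
          have := hub u h3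
          omega
        · subst h3
          rw [hChain_cut]
          omega
        · by_cases h5 : u < chainLast L + m
          · rw [hChain_block _ _ _ _ h3 h5]
          · rw [hChain_end _ _ _ _ h3 (by omega)]
            omega

end hchain

section chain

variable {κ R : Type*} [LinearOrder κ] [Fintype κ] [CommRing R] (q : R) (t : κ → R)

/-- Weight of a colouring, as a product over the edges. -/
def wt (h : ℕ → ℕ) (n : ℕ) (f : Fin n → κ) : R :=
  (∏ i : Fin n, ∏ j : Fin n, if i < j ∧ (j : ℕ) ≤ h i then ef q (f i) (f j) else 1)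
    * ∏ i : Fin n, t (f i)

/-- `Φ c` is the total weight of the colourings whose last vertex has colour `c`. -/
def Rep (h : ℕ → ℕ) (n' : ℕ) (Φ : κ → R) : Prop :=
  ∀ ρ : κ → R, ∑ f : Fin (n' + 1) → κ, wt q t h (n' + 1) f * ρ (f (Fin.last n')) = ∑ c, Φ c * ρ c

lemma sum_append {n m : ℕ} (F : (Fin (n + m) → κ) → R) :
    ∑ f, F f = ∑ f₀ : Fin n → κ, ∑ g : Fin m → κ, F (Fin.append f₀ g) := by
  let e : (Fin n → κ) × (Fin m → κ) ≃ (Fin (n + m) → κ) :=
    { toFun := fun p => Fin.append p.1 p.2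
      invFun := fun f => (fun i => f (Fin.castAdd m i), fun j => f (Fin.natAdd n j))
      left_inv := fun p => by simp
      right_inv := fun f => by
        funext i
        refine Fin.addCases (fun a => ?_) (fun b => ?_) i <;> simp }
  have := Fintype.sum_equiv e.symm F (fun x => F (e x)) (fun x => by rw [Equiv.apply_symm_apply])
  rw [this, Fintype.sum_prod_type]
  rfl

lemma prod_square_add {n m : ℕ} (F : Fin (n + m) → Fin (n + m) → R) :
    ∏ i, ∏ j, F i j
      = (∏ i : Fin n, ∏ j : Fin n, F (Fin.castAdd m i) (Fin.castAdd m j))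
        * (∏ i : Fin n, ∏ j : Fin m, F (Fin.castAdd m i) (Fin.natAdd n j))
        * ((∏ i : Fin m, ∏ j : Fin n, F (Fin.natAdd n i) (Fin.castAdd m j))
          * (∏ i : Fin m, ∏ j : Fin m, F (Fin.natAdd n i) (Fin.natAdd n j))) := by
  rw [Fin.prod_univ_add]
  simp only [Fin.prod_univ_add, prod_mul_distrib]

lemma wt_append (h h' : ℕ → ℕ) (n' k s : ℕ)
    (HA : ∀ i j : ℕ, i < j → j ≤ n' → (j ≤ h' i ↔ j ≤ h i))
    (HB : ∀ i j : ℕ, i < n' → n' + 1 ≤ j → ¬ j ≤ h' i)
    (HC : ∀ b : ℕ, (n' + 1 + b ≤ h' n' ↔ b < s))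
    (HD : ∀ a b : ℕ, a < b → b ≤ k → n' + 1 + b ≤ h' (n' + 1 + a))
    (f₀ : Fin (n' + 1) → κ) (g : Fin k → κ) (c : κ) :
    wt q t h' (n' + 1 + (k + 1)) (Fin.append f₀ (Fin.snoc g c : Fin (k + 1) → κ))
      = wt q t h (n' + 1) f₀ * (zwt q (f₀ (Fin.last n')) s g
          * (if k < s then ef q (f₀ (Fin.last n')) c else 1))
        * (cwt q g * ∏ a, ef q (g a) c) * (tw t g * t c) := by
  set g₁ : Fin (k + 1) → κ := Fin.snoc g c with hg₁
  have ha : ∀ i j : Fin (n' + 1),
      (if Fin.castAdd (k + 1) i < Fin.castAdd (k + 1) j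
          ∧ ((Fin.castAdd (k + 1) j : Fin (n' + 1 + (k + 1))) : ℕ) ≤ h' (Fin.castAdd (k + 1) i)
        then ef q (Fin.append f₀ g₁ (Fin.castAdd (k + 1) i)) (Fin.append f₀ g₁ (Fin.castAdd (k + 1) j))
        else 1)
      = if i < j ∧ (j : ℕ) ≤ h i then ef q (f₀ i) (f₀ j) else 1 := by
    intro i j
    simp only [Fin.append_left, Fin.val_castAdd, Fin.lt_def]
    by_cases hij : (i : ℕ) < j
    · have := HA i j hij (by omega)
      simp only [hij, true_and, this]
    · simp [hij]
  have hb : ∀ (i : Fin (k + 1)) (j : Fin (n' + 1)),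
      (if Fin.natAdd (n' + 1) i < Fin.castAdd (k + 1) j
          ∧ ((Fin.castAdd (k + 1) j : Fin (n' + 1 + (k + 1))) : ℕ) ≤ h' (Fin.natAdd (n' + 1) i)
        then ef q (Fin.append f₀ g₁ (Fin.natAdd (n' + 1) i)) (Fin.append f₀ g₁ (Fin.castAdd (k + 1) j))
        else 1) = 1 := by
    intro i j
    have : ¬ (Fin.natAdd (n' + 1) i < Fin.castAdd (k + 1) j) := by
      simp only [Fin.lt_def, Fin.val_natAdd, Fin.val_castAdd]
      omega
    simp [this]
  have hc : ∀ i j : Fin (k + 1),
      (if Fin.natAdd (n' + 1) i < Fin.natAdd (n' + 1) j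
          ∧ ((Fin.natAdd (n' + 1) j : Fin (n' + 1 + (k + 1))) : ℕ) ≤ h' (Fin.natAdd (n' + 1) i)
        then ef q (Fin.append f₀ g₁ (Fin.natAdd (n' + 1) i)) (Fin.append f₀ g₁ (Fin.natAdd (n' + 1) j))
        else 1)
      = if i < j then ef q (g₁ i) (g₁ j) else 1 := by
    intro i j
    simp only [Fin.append_right, Fin.val_natAdd, Fin.lt_def]
    by_cases hij : (i : ℕ) < j
    · have h1 : n' + 1 + (i : ℕ) < n' + 1 + j := by omega
      have h2 := HD i j hij (by omega)
      simp only [hij, h1, h2, and_self, if_true]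
    · have h1 : ¬ (n' + 1 + (i : ℕ) < n' + 1 + j) := by omega
      simp [hij, h1]
  have hd : ∏ i : Fin (n' + 1), ∏ j : Fin (k + 1),
      (if Fin.castAdd (k + 1) i < Fin.natAdd (n' + 1) j
          ∧ ((Fin.natAdd (n' + 1) j : Fin (n' + 1 + (k + 1))) : ℕ) ≤ h' (Fin.castAdd (k + 1) i)
        then ef q (Fin.append f₀ g₁ (Fin.castAdd (k + 1) i)) (Fin.append f₀ g₁ (Fin.natAdd (n' + 1) j))
        else 1)
      = zwt q (f₀ (Fin.last n')) s g₁ := by
    rw [Fin.prod_univ_castSucc]
    have h1 : ∏ i : Fin n', ∏ j : Fin (k + 1),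
        (if Fin.castAdd (k + 1) (Fin.castSucc i) < Fin.natAdd (n' + 1) j
          ∧ ((Fin.natAdd (n' + 1) j : Fin (n' + 1 + (k + 1))) : ℕ)
            ≤ h' (Fin.castAdd (k + 1) (Fin.castSucc i))
        then ef q (Fin.append f₀ g₁ (Fin.castAdd (k + 1) (Fin.castSucc i)))
          (Fin.append f₀ g₁ (Fin.natAdd (n' + 1) j))
        else 1) = 1 := by
      refine prod_eq_one fun i _ => prod_eq_one fun j _ => ?_
      rw [if_neg]
      rintro ⟨_, h2⟩
      simp only [Fin.val_natAdd, Fin.val_castAdd, Fin.val_castSucc] at h2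
      exact HB i _ i.2 (by omega) h2
    rw [h1, one_mul]
    unfold zwt
    refine prod_congr rfl fun j _ => ?_
    have h3 : Fin.castAdd (k + 1) (Fin.last n') < Fin.natAdd (n' + 1) j := by
      simp only [Fin.lt_def, Fin.val_natAdd, Fin.val_castAdd, Fin.val_last]
      omega
    have h4 := HC j
    simp only [Fin.val_natAdd, Fin.val_castAdd, Fin.val_last, h3, true_and, h4, Fin.append_left,
      Fin.append_right]
  have ha' := (prod_congr rfl fun i _ => prod_congr rfl fun j _ => ha i j :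
    ∏ i : Fin (n' + 1), ∏ j : Fin (n' + 1), (if Fin.castAdd (k + 1) i < Fin.castAdd (k + 1) j
          ∧ ((Fin.castAdd (k + 1) j : Fin (n' + 1 + (k + 1))) : ℕ) ≤ h' (Fin.castAdd (k + 1) i)
        then ef q (Fin.append f₀ g₁ (Fin.castAdd (k + 1) i)) (Fin.append f₀ g₁ (Fin.castAdd (k + 1) j))
        else 1) = ∏ i : Fin (n' + 1), ∏ j : Fin (n' + 1), _)
  have hb' := (prod_eq_one fun i _ => prod_eq_one fun j _ => hb i j :
    ∏ i : Fin (k + 1), ∏ j : Fin (n' + 1), (if Fin.natAdd (n' + 1) i < Fin.castAdd (k + 1) j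
          ∧ ((Fin.castAdd (k + 1) j : Fin (n' + 1 + (k + 1))) : ℕ) ≤ h' (Fin.natAdd (n' + 1) i)
        then ef q (Fin.append f₀ g₁ (Fin.natAdd (n' + 1) i)) (Fin.append f₀ g₁ (Fin.castAdd (k + 1) j))
        else 1) = 1)
  have hc' := (prod_congr rfl fun i _ => prod_congr rfl fun j _ => hc i j :
    ∏ i : Fin (k + 1), ∏ j : Fin (k + 1), (if Fin.natAdd (n' + 1) i < Fin.natAdd (n' + 1) j
          ∧ ((Fin.natAdd (n' + 1) j : Fin (n' + 1 + (k + 1))) : ℕ) ≤ h' (Fin.natAdd (n' + 1) i)
        then ef q (Fin.append f₀ g₁ (Fin.natAdd (n' + 1) i)) (Fin.append f₀ g₁ (Fin.natAdd (n' + 1) j))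
        else 1) = ∏ i : Fin (k + 1), ∏ j : Fin (k + 1), _)
  unfold wt
  rw [prod_square_add, ha', hd, hb', hc', Fin.prod_univ_add (fun i => t (Fin.append f₀ g₁ i))]
  simp only [Fin.append_left, Fin.append_right]
  have hcw : (∏ i : Fin (k + 1), ∏ j : Fin (k + 1), if i < j then ef q (g₁ i) (g₁ j) else 1)
      = cwt q g₁ := rfl
  have htw : (∏ i : Fin (k + 1), t (g₁ i)) = tw t g₁ := rfl
  rw [hcw, htw, hg₁, zwt_snoc, cwt_snoc, tw_snoc]
  ring

/-- The transfer operator of a block with `k + 1` new vertices and `s` attaching edges. -/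
def Trans (s k : ℕ) (Φ : κ → R) (c : κ) : R :=
  t c * ∑ z, Φ z * ((if k < s then ef q z c else 1)
    * ∑ S ∈ powersetCard k (univ : Finset κ), (∏ p ∈ S, t p) * Acl q s k z S * ∏ y ∈ S, ef q y c)

lemma clique_sum' (z : κ) (s k : ℕ) (c : κ) :
    ∑ g : Fin k → κ, cwt q g * zwt q z s g * tw t g * ∏ a, ef q (g a) c
      = ∑ S ∈ powersetCard k (univ : Finset κ),
          (∏ p ∈ S, t p) * Acl q s k z S * ∏ y ∈ S, ef q y c := by
  rw [← clique_sum q t z s k (fun S => ∏ y ∈ S, ef q y c)]
  refine sum_congr rfl fun g _ => ?_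
  by_cases hg : Function.Injective g
  · rw [prod_image (fun a _ b _ h => hg h)]
  · simp [cwt_eq_zero_of_not_injective q g hg]

theorem Rep_block (h h' : ℕ → ℕ) (n' n'' k s : ℕ) (hn : n'' = n' + 1 + k)
    (HA : ∀ i j : ℕ, i < j → j ≤ n' → (j ≤ h' i ↔ j ≤ h i))
    (HB : ∀ i j : ℕ, i < n' → n' + 1 ≤ j → ¬ j ≤ h' i)
    (HC : ∀ b : ℕ, (n' + 1 + b ≤ h' n' ↔ b < s))
    (HD : ∀ a b : ℕ, a < b → b ≤ k → n' + 1 + b ≤ h' (n' + 1 + a))
    (Φ : κ → R) (hΦ : Rep q t h n' Φ) : Rep q t h' n'' (Trans q t s k Φ) := by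
  subst hn
  intro ρ
  change ∑ f : Fin (n' + 1 + (k + 1)) → κ, wt q t h' (n' + 1 + (k + 1)) f
      * ρ (f (Fin.natAdd (n' + 1) (Fin.last k))) = _
  rw [sum_append]
  have h1 : ∀ f₀ : Fin (n' + 1) → κ,
      ∑ g₁ : Fin (k + 1) → κ, wt q t h' (n' + 1 + (k + 1)) (Fin.append f₀ g₁)
          * ρ (Fin.append f₀ g₁ (Fin.natAdd (n' + 1) (Fin.last k)))
        = ∑ c, t c * ρ c * (wt q t h (n' + 1) f₀ * ((if k < s then ef q (f₀ (Fin.last n')) c else 1)
            * ∑ S ∈ powersetCard k (univ : Finset κ),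
              (∏ p ∈ S, t p) * Acl q s k (f₀ (Fin.last n')) S * ∏ y ∈ S, ef q y c)) := by
    intro f₀
    rw [sum_snoc, sum_comm]
    refine sum_congr rfl fun c _ => ?_
    rw [← clique_sum', mul_sum, mul_sum, mul_sum]
    refine sum_congr rfl fun g _ => ?_
    rw [Fin.append_right, Fin.snoc_last, wt_append q t h h' n' k s HA HB HC HD]
    ring
  rw [sum_congr rfl (fun f₀ _ => h1 f₀), sum_comm]
  refine sum_congr rfl fun c _ => ?_
  have h2 := hΦ (fun z => (if k < s then ef q z c else 1)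
      * ∑ S ∈ powersetCard k (univ : Finset κ), (∏ p ∈ S, t p) * Acl q s k z S * ∏ y ∈ S, ef q y c)
  unfold Trans
  rw [← h2, ← mul_sum]
  ring

lemma sum_S_P (k : ℕ) (c : κ) :
    ∑ S ∈ powersetCard k (univ : Finset κ), (∏ p ∈ S, t p) * ∏ y ∈ S, ef q y c
      = Pg q t univ c k := by
  unfold Pg esy
  rw [← sum_subset (powersetCard_mono (erase_subset c univ))]
  · refine sum_congr rfl fun S hS => ?_
    rw [← prod_mul_distrib]
    refine prod_congr rfl fun y hy => ?_
    have hy' : y ≠ c := ne_of_mem_erase ((mem_powersetCard.mp hS).1 hy)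
    simp only [w1, ef, hy', if_false]
    ring
  · intro S hS hS'
    have hc : c ∈ S := by
      by_contra hc
      apply hS'
      rw [mem_powersetCard] at hS ⊢
      exact ⟨fun y hy => mem_erase.mpr ⟨fun h => hc (h ▸ hy), mem_univ _⟩, hS.2⟩
    have h0 : ∏ y ∈ S, ef q y c = 0 := prod_eq_zero hc (by simp [ef])
    rw [h0, mul_zero]

lemma sum_S_Q (k : ℕ) (z c : κ) :
    ∑ S ∈ powersetCard k (univ : Finset κ),
        (∏ p ∈ S, t p) * (if z ∈ S then 0 else q ^ ngt S z) * ∏ y ∈ S, ef q y c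
      = Qg q t univ z c k := by
  unfold Qg esy
  rw [← sum_subset (powersetCard_mono
    ((erase_subset c _).trans (erase_subset z univ)))]
  · refine sum_congr rfl fun S hS => ?_
    have hSsub := (mem_powersetCard.mp hS).1
    have hz : z ∉ S := fun h => (mem_erase.mp (mem_of_mem_erase (hSsub h))).1 rfl
    rw [if_neg hz]
    have h1 : q ^ ngt S z = ∏ y ∈ S, (if z < y then q else 1) := by
      rw [prod_ite]
      simp [ngt]
    rw [h1, ← prod_mul_distrib, ← prod_mul_distrib]
    refine prod_congr rfl fun y hy => ?_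
    have hy' : y ≠ c := ne_of_mem_erase (hSsub hy)
    simp only [w2, ef, hy', if_false]
    ring
  · intro S hS hS'
    by_cases hc : c ∈ S
    · have h0 : ∏ y ∈ S, ef q y c = 0 := prod_eq_zero hc (by simp [ef])
      rw [h0, mul_zero]
    · by_cases hz : z ∈ S
      · simp [hz]
      · exfalso
        apply hS'
        rw [mem_powersetCard] at hS ⊢
        refine ⟨fun y hy => mem_erase.mpr ⟨fun h => hc (h ▸ hy),
          mem_erase.mpr ⟨fun h => hz (h ▸ hy), mem_univ _⟩⟩, hS.2⟩

/-- The weight sum over sets, split in the two parts. -/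
lemma sum_S_Acl (s k : ℕ) (z c : κ) :
    ∑ S ∈ powersetCard k (univ : Finset κ), (∏ p ∈ S, t p) * Acl q s k z S * ∏ y ∈ S, ef q y c
      = alphaq q s k * Pg q t univ c k + betaq q s k * Qg q t univ z c k := by
  rw [← sum_S_P, ← sum_S_Q, mul_sum, mul_sum, ← sum_add_distrib]
  refine sum_congr rfl fun S _ => ?_
  unfold Acl
  split_ifs <;> ring

lemma Trans_of_le (s k : ℕ) (hs : s ≤ k) (Φ : κ → R) (c : κ) :
    Trans q t s k Φ c = t c * ((∑ z, Φ z) * alphaq q s k * Pg q t univ c k
      + betaq q s k * ∑ z, Φ z * Qg q t univ z c k) := by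
  unfold Trans
  have : ¬ k < s := by omega
  simp only [this, if_false, one_mul, sum_S_Acl]
  congr 1
  rw [sum_mul, sum_mul, mul_sum, ← sum_add_distrib]
  refine sum_congr rfl fun z _ => ?_
  ring

lemma Trans_of_gt (s k : ℕ) (hs : k < s) (Φ : κ → R) (c : κ) :
    Trans q t s k Φ c = t c * (betaq q s k
      * ∑ z ∈ univ.erase c, (if z < c then q else 1) * Φ z * Qg q t univ z c k) := by
  unfold Trans
  simp only [hs, if_true, sum_S_Acl, alphaq_of_le q s k hs.le, zero_mul, zero_add]
  congr 1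
  rw [mul_sum, ← sum_subset (erase_subset c univ)]
  · refine sum_congr rfl fun z hz => ?_
    have hz' : z ≠ c := ne_of_mem_erase hz
    simp only [ef, hz', if_false]
    ring
  · intro z _ hz
    have : z = c := by
      by_contra h
      exact hz (mem_erase.mpr ⟨h, mem_univ _⟩)
    subst this
    simp [ef]

lemma Trans_gen_le (x : R) (s k a : ℕ) (hs : s ≤ k) (c : κ) :
    Trans q t s k (fun z => x * (t z * Pg q t univ z a)) c
      = x * (alphaq q s k * qn q (a + 1)) * esy univ t (a + 1) * (t c * Pg q t univ c k)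
        + ∑ i ∈ range (a + k + 1 + 1), x * (betaq q s k * kap q (a + 1) k i) * esy univ t i
            * (t c * Pg q t univ c (a + k + 1 - i)) := by
  rw [Trans_of_le _ _ s k hs]
  have h1 : ∑ z, x * (t z * Pg q t univ z a) = x * (qn q (a + 1) * esy univ t (a + 1)) := by
    rw [← mul_sum]
    congr 1
    exact sum_Pg q t univ a
  have h2 : ∑ z, x * (t z * Pg q t univ z a) * Qg q t univ z c k = x * Tg q t univ c a k := by
    unfold Tg
    rw [mul_sum]
    refine sum_congr rfl fun z _ => ?_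
    ring
  rw [h1, h2, Tg_eq q t univ c (mem_univ c) a k]
  unfold bil
  rw [mul_sum, mul_add, mul_sum, mul_sum]
  congr 1
  · ring
  · refine sum_congr rfl fun i _ => ?_
    ring

lemma Trans_gen_gt (x : R) (s k a : ℕ) (hs : k < s) (c : κ) :
    Trans q t s k (fun z => x * (t z * Pg q t univ z a)) c
      = ∑ i ∈ range (a + k + 1 + 1), x * (betaq q s k * kap q (a + 1) (k + 1) i) * esy univ t i
            * (t c * Pg q t univ c (a + k + 1 - i)) := by
  rw [Trans_of_gt _ _ s k hs]
  have h2 : ∑ z ∈ univ.erase c, (if z < c then q else 1) * (x * (t z * Pg q t univ z a))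
        * Qg q t univ z c k
      = x * Tc q t univ c a k := by
    unfold Tc
    rw [mul_sum]
    refine sum_congr rfl fun z _ => ?_
    ring
  rw [h2, Tc_eq q t univ c (mem_univ c) a k]
  unfold bil
  rw [mul_sum, mul_sum, mul_sum]
  refine sum_congr rfl fun i _ => ?_
  ring

lemma sum_gen (x : R) (a : ℕ) :
    ∑ c, x * (t c * Pg q t univ c a) = x * qn q (a + 1) * esy univ t (a + 1) := by
  rw [← mul_sum, sum_Pg]
  ring

end chain

end Vale.Agent.Lib.P066H
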