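import Vale.Agent.Lib.P066H.Esy

/-!
The weighted sum over colourings of a clique with one extra vertex attached to an initial segment.
-/

set_option linter.unusedSectionVars false

namespace Vale.Agent.Lib.P066H

open Finset

section clique

variable {κ R : Type*} [LinearOrder κ] [CommRing R] (q : R) (t : κ → R)

/-- Edge factor: zero on equal colours, `q` on an ascent, `1` on a descent. -/
def ef (x y : κ) : R := if x = y then 0 else if x < y then q else 1

/-- Weight of a colouring of a clique. -/
def cwt {k : ℕ} (g : Fin k → κ) : R :=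
  ∏ a : Fin k, ∏ b : Fin k, (if a < b then ef q (g a) (g b) else 1)

/-- Weight of the edges from an outside vertex of colour `z` to the first `s` clique vertices. -/
def zwt (z : κ) (s : ℕ) {k : ℕ} (g : Fin k → κ) : R :=
  ∏ b : Fin k, (if (b : ℕ) < s then ef q z (g b) else 1)

/-- Colour monomial of a tuple. -/
def tw {k : ℕ} (g : Fin k → κ) : R := ∏ b : Fin k, t (g b)

def nlt (S : Finset κ) (c : κ) : ℕ := (S.filter (· < c)).card

def ngt (S : Finset κ) (z : κ) : ℕ := (S.filter (z < ·)).card

lemma alphaq_of_le (s : ℕ) : ∀ k, k ≤ s → alphaq q s k = 0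
  | 0, _ => rfl
  | k + 1, h => by
    simp only [alphaq, h, if_true]

lemma sum_q_nlt (S : Finset κ) : ∑ p ∈ S, q ^ nlt (S.erase p) p = qn q S.card := by
  induction S using Finset.induction_on_max with
  | empty => simp
  | insert M S' hlt ih =>
    have hM : M ∉ S' := fun h => lt_irrefl _ (hlt M h)
    rw [sum_insert hM, card_insert_of_notMem hM, qn_succ, erase_insert hM]
    have h1 : nlt S' M = S'.card := by
      unfold nlt
      rw [filter_true_of_mem hlt]
    have h2 : ∑ p ∈ S', q ^ nlt ((insert M S').erase p) p = ∑ p ∈ S', q ^ nlt (S'.erase p) p := by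
      refine sum_congr rfl fun p hp => ?_
      have hne : M ≠ p := fun h => hM (h ▸ hp)
      rw [erase_insert_of_ne hne]
      unfold nlt
      rw [filter_insert, if_neg (not_lt_of_gt (hlt p hp))]
    rw [h1, h2, ih]
    ring

lemma sum_q_nlt_ngt (z : κ) (S : Finset κ) (hS : S.Nonempty) :
    ∑ p ∈ S, q ^ nlt (S.erase p) p * (if z ∈ S.erase p then 0 else q ^ ngt (S.erase p) z)
      = (if z ∈ S then 0 else q ^ ngt S z * qn q (S.card - 1)) + q ^ (S.card - 1) := by
  induction S using Finset.induction_on_max with
  | empty => exact absurd hS (by simp)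
  | insert M S' hlt ih =>
    have hM : M ∉ S' := fun h => lt_irrefl _ (hlt M h)
    rw [sum_insert hM, card_insert_of_notMem hM, Nat.add_sub_cancel, erase_insert hM]
    have h1 : nlt S' M = S'.card := by
      unfold nlt
      rw [filter_true_of_mem hlt]
    rw [h1]
    have hnl : ∀ p ∈ S', nlt ((insert M S').erase p) p = nlt (S'.erase p) p := by
      intro p hp
      have hne : M ≠ p := fun h => hM (h ▸ hp)
      rw [erase_insert_of_ne hne]
      unfold nlt
      rw [filter_insert, if_neg (not_lt_of_gt (hlt p hp))]
    rcases lt_trichotomy z M with hz | hz | hz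
    · -- z below the new maximum
      have hzS : z ∈ insert M S' ↔ z ∈ S' := by
        simp [hz.ne]
      have hng : ngt (insert M S') z = ngt S' z + 1 := by
        unfold ngt
        rw [filter_insert, if_pos hz, card_insert_of_notMem]
        simp [hM]
      have hterm : ∀ p ∈ S', q ^ nlt ((insert M S').erase p) p
          * (if z ∈ (insert M S').erase p then 0 else q ^ ngt ((insert M S').erase p) z)
          = q * (q ^ nlt (S'.erase p) p * (if z ∈ S'.erase p then 0 else q ^ ngt (S'.erase p) z)) := by
        intro p hp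
        have hne : M ≠ p := fun h => hM (h ▸ hp)
        rw [hnl p hp, erase_insert_of_ne hne]
        have h3 : z ∈ insert M (S'.erase p) ↔ z ∈ S'.erase p := by
          simp [hz.ne]
        have h4 : ngt (insert M (S'.erase p)) z = ngt (S'.erase p) z + 1 := by
          unfold ngt
          rw [filter_insert, if_pos hz, card_insert_of_notMem]
          simp [hM]
        by_cases h5 : z ∈ S'.erase p
        · simp [h3, h5]
        · simp only [h3, h5, if_false, h4]
          ring
      rw [sum_congr rfl hterm, ← mul_sum, hng]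
      rcases S'.eq_empty_or_nonempty with hE | hN
      · subst hE
        simp [hz.ne, ngt]
      · have IH := ih hN
        rw [IH]
        obtain ⟨n, hn⟩ : ∃ n, S'.card = n + 1 := ⟨S'.card - 1, by
          have := hN.card_pos
          omega⟩
        rw [hn, Nat.add_sub_cancel]
        by_cases h6 : z ∈ S'
        · simp [h6, hzS]
          ring
        · simp only [h6, hzS, if_false]
          rw [qn_succ]
          ring
    · -- z is the new maximum
      subst hz
      have h6 : ∀ p ∈ S', z ∈ (insert z S').erase p := by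
        intro p hp
        have hne : z ≠ p := fun h => hM (h ▸ hp)
        exact mem_erase.mpr ⟨hne, mem_insert_self _ _⟩
      have h7 : ngt S' z = 0 := by
        unfold ngt
        rw [card_eq_zero, filter_eq_empty_iff]
        intro x hx
        exact not_lt_of_gt (hlt x hx)
      rw [sum_eq_zero (fun p hp => by simp [h6 p hp]), if_neg hM, h7]
      simp
    · -- z above the new maximum
      have hzS' : z ∉ S' := fun h => lt_irrefl _ (lt_trans (hlt z h) hz)
      have hzS : z ∉ insert M S' := by
        simp [hz.ne', hzS']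
      have h7 : ∀ X : Finset κ, X ⊆ insert M S' → ngt X z = 0 := by
        intro X hX
        unfold ngt
        rw [card_eq_zero, filter_eq_empty_iff]
        intro x hx
        have := hX hx
        rcases mem_insert.mp this with rfl | h
        · exact not_lt_of_gt hz
        · exact not_lt_of_gt (lt_trans (hlt x h) hz)
      have hterm : ∀ p ∈ S', q ^ nlt ((insert M S').erase p) p
          * (if z ∈ (insert M S').erase p then 0 else q ^ ngt ((insert M S').erase p) z)
          = q ^ nlt (S'.erase p) p := by
        intro p hp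
        rw [hnl p hp, if_neg (fun h => hzS (mem_of_mem_erase h)), h7 _ (erase_subset _ _)]
        simp
      rw [sum_congr rfl hterm, if_neg hzS, if_neg hzS', h7 _ (subset_refl _),
        h7 _ (subset_insert _ _), sum_q_nlt]
      simp only [pow_zero, mul_one, one_mul]
      ring

lemma prod_ef_left (S : Finset κ) (p : κ) :
    ∏ y ∈ S, ef q y p = if p ∈ S then 0 else q ^ nlt S p := by
  by_cases h : p ∈ S
  · rw [if_pos h]
    exact prod_eq_zero h (by simp [ef])
  · rw [if_neg h]
    have : ∀ y ∈ S, ef q y p = if y < p then q else 1 := by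
      intro y hy
      have : y ≠ p := fun h' => h (h' ▸ hy)
      simp [ef, this]
    rw [prod_congr rfl this, prod_ite]
    simp [nlt]

lemma cwt_snoc {k : ℕ} (g : Fin k → κ) (p : κ) :
    cwt q (Fin.snoc g p : Fin (k + 1) → κ) = cwt q g * ∏ a : Fin k, ef q (g a) p := by
  unfold cwt
  rw [Fin.prod_univ_castSucc]
  have h1 : ∏ b : Fin (k + 1), (if Fin.last k < b
      then ef q ((Fin.snoc g p : Fin (k + 1) → κ) (Fin.last k)) ((Fin.snoc g p : Fin (k + 1) → κ) b)
      else 1) = 1 := by
    refine prod_eq_one fun b _ => ?_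
    rw [if_neg (not_lt_of_ge (Fin.le_last b))]
  rw [h1, mul_one, ← prod_mul_distrib]
  refine prod_congr rfl fun a _ => ?_
  rw [Fin.prod_univ_castSucc]
  simp [Fin.snoc_castSucc, Fin.snoc_last, Fin.castSucc_lt_last]

lemma zwt_snoc (z : κ) (s : ℕ) {k : ℕ} (g : Fin k → κ) (p : κ) :
    zwt q z s (Fin.snoc g p : Fin (k + 1) → κ)
      = zwt q z s g * (if k < s then ef q z p else 1) := by
  unfold zwt
  rw [Fin.prod_univ_castSucc]
  simp [Fin.snoc_castSucc, Fin.snoc_last]

lemma tw_snoc {k : ℕ} (g : Fin k → κ) (p : κ) :
    tw t (Fin.snoc g p : Fin (k + 1) → κ) = tw t g * t p := by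
  unfold tw
  rw [Fin.prod_univ_castSucc]
  simp [Fin.snoc_castSucc, Fin.snoc_last]

lemma image_snoc [Fintype κ] {k : ℕ} (g : Fin k → κ) (p : κ) :
    univ.image (Fin.snoc g p : Fin (k + 1) → κ) = insert p (univ.image g) := by
  ext x
  simp [Fin.exists_fin_succ', or_comm, eq_comm]

lemma cwt_eq_zero_of_not_injective {k : ℕ} (g : Fin k → κ) (h : ¬ Function.Injective g) :
    cwt q g = 0 := by
  unfold Function.Injective at h
  push Not at h
  obtain ⟨a, b, hab, hne⟩ := h
  unfold cwt
  rcases lt_or_gt_of_ne hne with h1 | h1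
  · refine prod_eq_zero (mem_univ a) (prod_eq_zero (mem_univ b) ?_)
    simp [h1, ef, hab]
  · refine prod_eq_zero (mem_univ b) (prod_eq_zero (mem_univ a) ?_)
    simp [h1, ef, hab]

lemma sum_snoc [Fintype κ] {k : ℕ} (F : (Fin (k + 1) → κ) → R) :
    ∑ g, F g = ∑ g : Fin k → κ, ∑ p, F (Fin.snoc g p) := by
  have := Fintype.sum_equiv (Fin.snocEquiv (fun _ : Fin (k + 1) => κ)).symm F
    (fun x => F ((Fin.snocEquiv (fun _ : Fin (k + 1) => κ)) x))
    (fun x => by rw [Equiv.apply_symm_apply])
  rw [this, Fintype.sum_prod_type_right]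
  rfl

lemma ngt_erase {S : Finset κ} {p : κ} (hp : p ∈ S) (z : κ) :
    ngt S z = ngt (S.erase p) z + (if z < p then 1 else 0) := by
  unfold ngt
  conv_lhs => rw [← insert_erase hp]
  rw [filter_insert]
  split_ifs with h
  · rw [card_insert_of_notMem]
    simp
  · rfl

/-- The polynomial coefficient in the clique sum. -/
def Acl (s k : ℕ) (z : κ) (S : Finset κ) : R :=
  alphaq q s k + (if z ∈ S then 0 else betaq q s k * q ^ ngt S z)

lemma Acl_step (s k : ℕ) (z : κ) (S : Finset κ) (hS : S.card = k + 1) :
    ∑ p ∈ S, Acl q s k z (S.erase p) * q ^ nlt (S.erase p) p * (if k < s then ef q z p else 1)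
      = Acl q s (k + 1) z S := by
  have hne : S.Nonempty := by
    rw [← card_pos]
    omega
  by_cases hk : k < s
  · simp only [if_pos hk]
    have ha0 : alphaq q s k = 0 := alphaq_of_le q s k hk.le
    have ha1 : alphaq q s (k + 1) = 0 := alphaq_of_le q s (k + 1) hk
    have hb1 : betaq q s (k + 1) = qn q (k + 1) * betaq q s k := by
      simp only [betaq, show k + 1 ≤ s from hk, if_true]
    unfold Acl
    rw [ha0, ha1, hb1]
    by_cases hz : z ∈ S
    · rw [if_pos hz, add_zero]
      refine sum_eq_zero fun p hp => ?_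
      by_cases hzp : z = p
      · subst hzp
        simp [ef]
      · have : z ∈ S.erase p := mem_erase.mpr ⟨hzp, hz⟩
        simp [this]
    · rw [if_neg hz, zero_add]
      have hterm : ∀ p ∈ S, (0 + (if z ∈ S.erase p then 0 else betaq q s k * q ^ ngt (S.erase p) z))
          * q ^ nlt (S.erase p) p * ef q z p
          = betaq q s k * q ^ ngt S z * q ^ nlt (S.erase p) p := by
        intro p hp
        have h1 : z ∉ S.erase p := fun h => hz (mem_of_mem_erase h)
        have h2 : z ≠ p := fun h => hz (h ▸ hp)
        rw [if_neg h1, ngt_erase hp z]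
        unfold ef
        rw [if_neg h2]
        by_cases h3 : z < p
        · simp only [h3, if_true, pow_add, pow_one, zero_add]
          ring
        · simp only [h3, if_false, pow_zero, zero_add, add_zero, mul_one]
      rw [sum_congr rfl hterm, ← mul_sum, sum_q_nlt, hS]
      ring
  · simp only [if_neg hk, mul_one]
    have ha1 : alphaq q s (k + 1) = qn q (k + 1) * alphaq q s k + betaq q s k * q ^ k := by
      have : ¬ k + 1 ≤ s := by omega
      simp only [alphaq, this, if_false]
    have hb1 : betaq q s (k + 1) = qn q k * betaq q s k := by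
      have : ¬ k + 1 ≤ s := by omega
      simp only [betaq, this, if_false]
    unfold Acl
    rw [ha1, hb1]
    have hterm : ∀ p ∈ S, (alphaq q s k
          + (if z ∈ S.erase p then 0 else betaq q s k * q ^ ngt (S.erase p) z))
          * q ^ nlt (S.erase p) p
        = alphaq q s k * q ^ nlt (S.erase p) p
          + betaq q s k * (q ^ nlt (S.erase p) p
            * (if z ∈ S.erase p then 0 else q ^ ngt (S.erase p) z)) := by
      intro p _
      split_ifs <;> ring
    rw [sum_congr rfl hterm, sum_add_distrib, ← mul_sum, ← mul_sum, sum_q_nlt,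
      sum_q_nlt_ngt q z S hne, hS, Nat.add_sub_cancel]
    split_ifs <;> ring

lemma sum_exchange [Fintype κ] (k : ℕ) (Y : Finset κ → κ → R) :
    ∑ S' ∈ powersetCard k (univ : Finset κ), ∑ p ∈ univ \ S', Y S' p
      = ∑ S ∈ powersetCard (k + 1) (univ : Finset κ), ∑ p ∈ S, Y (S.erase p) p := by
  rw [sum_sigma', sum_sigma']
  refine sum_nbij' (fun x => ⟨insert x.2 x.1, x.2⟩) (fun x => ⟨x.1.erase x.2, x.2⟩) ?_ ?_ ?_ ?_ ?_
  · rintro ⟨S', p⟩ h
    simp only [mem_sigma, mem_powersetCard, mem_sdiff, mem_univ, true_and, subset_univ] at h ⊢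
    refine ⟨?_, mem_insert_self _ _⟩
    rw [card_insert_of_notMem h.2, h.1]
  · rintro ⟨S, p⟩ h
    simp only [mem_sigma, mem_powersetCard, mem_sdiff, mem_univ, true_and, subset_univ] at h ⊢
    refine ⟨?_, notMem_erase _ _⟩
    rw [card_erase_of_mem h.2, h.1, Nat.add_sub_cancel]
  · rintro ⟨S', p⟩ h
    simp only [mem_sigma, mem_powersetCard, mem_sdiff, mem_univ, true_and, subset_univ] at h
    simp [erase_insert h.2]
  · rintro ⟨S, p⟩ h
    simp only [mem_sigma, mem_powersetCard, mem_univ, true_and, subset_univ] at h
    simp [insert_erase h.2]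
  · rintro ⟨S', p⟩ h
    simp only [mem_sigma, mem_powersetCard, mem_sdiff, mem_univ, true_and, subset_univ] at h
    simp [erase_insert h.2]

theorem clique_sum [Fintype κ] (z : κ) (s : ℕ) (k : ℕ) (Ψ : Finset κ → R) :
    ∑ g : Fin k → κ, cwt q g * zwt q z s g * tw t g * Ψ (univ.image g)
      = ∑ S ∈ powersetCard k (univ : Finset κ), (∏ p ∈ S, t p) * Acl q s k z S * Ψ S := by
  induction k generalizing Ψ with
  | zero =>
    simp [cwt, zwt, tw, Acl, alphaq, betaq, ngt]
  | succ k ih =>
    rw [sum_snoc]
    set Ψ' : Finset κ → R := fun S' =>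
      ∑ p, t p * (∏ y ∈ S', ef q y p) * (if k < s then ef q z p else 1) * Ψ (insert p S') with hΨ'
    have h1 : ∀ g : Fin k → κ,
        ∑ p, cwt q (Fin.snoc g p : Fin (k + 1) → κ) * zwt q z s (Fin.snoc g p : Fin (k + 1) → κ)
            * tw t (Fin.snoc g p : Fin (k + 1) → κ)
            * Ψ (univ.image (Fin.snoc g p : Fin (k + 1) → κ))
          = cwt q g * zwt q z s g * tw t g * Ψ' (univ.image g) := by
      intro g
      by_cases hg : Function.Injective g
      · rw [hΨ']
        simp only
        rw [mul_sum]
        refine sum_congr rfl fun p _ => ?_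
        rw [cwt_snoc, zwt_snoc, tw_snoc, image_snoc, prod_image (fun a _ b _ h => hg h)]
        ring
      · simp [cwt_snoc, cwt_eq_zero_of_not_injective q g hg]
    rw [sum_congr rfl (fun g _ => h1 g), ih Ψ']
    have h2 : ∀ S' ∈ powersetCard k (univ : Finset κ),
        (∏ p ∈ S', t p) * Acl q s k z S' * Ψ' S'
          = ∑ p ∈ univ \ S', (∏ p ∈ S', t p) * Acl q s k z S'
              * (t p * q ^ nlt S' p * (if k < s then ef q z p else 1) * Ψ (insert p S')) := by
      intro S' _
      rw [hΨ']
      simp only
      rw [← mul_sum]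
      congr 1
      have : (univ : Finset κ) = (univ \ S') ∪ S' := by simp
      conv_lhs => rw [this]
      rw [sum_union (sdiff_disjoint)]
      have h3 : ∑ p ∈ S', t p * (∏ y ∈ S', ef q y p) * (if k < s then ef q z p else 1)
          * Ψ (insert p S') = 0 := by
        refine sum_eq_zero fun p hp => ?_
        rw [prod_ef_left, if_pos hp]
        ring
      rw [h3, add_zero]
      refine sum_congr rfl fun p hp => ?_
      have hp' : p ∉ S' := (mem_sdiff.mp hp).2
      rw [prod_ef_left, if_neg hp']
    rw [sum_congr rfl h2,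
      sum_exchange k (fun S' p => (∏ p ∈ S', t p) * Acl q s k z S'
              * (t p * q ^ nlt S' p * (if k < s then ef q z p else 1) * Ψ (insert p S')))]
    refine sum_congr rfl fun S hS => ?_
    have hcard : S.card = k + 1 := (mem_powersetCard.mp hS).2
    rw [← Acl_step q s k z S hcard, mul_sum, sum_mul]
    refine sum_congr rfl fun p hp => ?_
    rw [insert_erase hp, ← prod_erase_mul S t hp]
    ring

end clique

end Vale.Agent.Lib.P066H
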