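import Mathlib

/-!
Elementary symmetric sums with modified weights, and the insertion identities behind the
row-star chain transfer.
-/

set_option linter.unusedSectionVars false

namespace Vale.Agent.Lib.P066H

open Finset

section semiring

variable {S S' : Type*} [CommSemiring S] [CommSemiring S']

/-- The q-integer `1 + q + ... + q^(n-1)`. -/
def qn (q : S) (n : ℕ) : S := ∑ k ∈ range n, q ^ k

@[simp] lemma qn_zero (q : S) : qn q 0 = 0 := by simp [qn]

lemma qn_succ (q : S) (n : ℕ) : qn q (n + 1) = qn q n + q ^ n := by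
  simp [qn, sum_range_succ]

/-- `beta`: coefficient of the attached part of a clique sum. -/
def betaq (q : S) (s : ℕ) : ℕ → S
  | 0 => 1
  | k + 1 => if k + 1 ≤ s then qn q (k + 1) * betaq q s k else qn q k * betaq q s k

/-- `alpha`: coefficient of the free part of a clique sum. -/
def alphaq (q : S) (s : ℕ) : ℕ → S
  | 0 => 0
  | k + 1 => if k + 1 ≤ s then 0 else qn q (k + 1) * alphaq q s k + betaq q s k * q ^ k

lemma map_qn (φ : S →+* S') (q : S) (n : ℕ) : φ (qn q n) = qn (φ q) n := by
  simp [qn, map_sum, map_pow]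

lemma map_betaq (φ : S →+* S') (q : S) (s : ℕ) : ∀ k, φ (betaq q s k) = betaq (φ q) s k
  | 0 => by simp [betaq]
  | k + 1 => by
    simp only [betaq]
    split_ifs <;> rw [map_mul, map_qn, map_betaq φ q s k]

lemma map_alphaq (φ : S →+* S') (q : S) (s : ℕ) : ∀ k, φ (alphaq q s k) = alphaq (φ q) s k
  | 0 => by simp [alphaq]
  | k + 1 => by
    simp only [alphaq]
    split_ifs
    · simp
    · rw [map_add, map_mul, map_mul, map_pow, map_qn, map_betaq, map_alphaq φ q s k]

end semiring

section basic

variable {R : Type*} [CommRing R]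

lemma qn_succ' (q : R) (n : ℕ) : qn q (n + 1) = 1 + q * qn q n := by
  induction n with
  | zero => simp [qn]
  | succ n ih =>
    have h1 := qn_succ q (n + 1)
    have h2 := qn_succ q n
    linear_combination h1 + ih - q * h2

lemma qn_add (q : R) (x y : ℕ) : qn q (x + y) = qn q x + q ^ x * qn q y := by
  induction y with
  | zero => simp
  | succ y ih =>
    rw [← add_assoc, qn_succ, ih, qn_succ]
    ring

/-- Shift of a sequence: `dn f 0 = 0` and `dn f (k+1) = f k`. -/
def dn (f : ℕ → R) : ℕ → R
  | 0 => 0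
  | k + 1 => f k

@[simp] lemma dn_zero (f : ℕ → R) : dn f 0 = 0 := rfl
@[simp] lemma dn_succ (f : ℕ → R) (k : ℕ) : dn f (k + 1) = f k := rfl

/-- The bilinear convolution. -/
def bil (K e g : ℕ → R) (n : ℕ) : R := ∑ i ∈ range (n + 1), K i * e i * g (n - i)

lemma bil_dn_left (K e g : ℕ → R) (n : ℕ) :
    bil K (dn e) g (n + 1) = bil (fun i => K (i + 1)) e g n := by
  unfold bil
  rw [sum_range_succ']
  simp only [dn_succ, dn_zero, mul_zero, zero_mul, add_zero]
  refine sum_congr rfl fun i _ => ?_
  rw [Nat.add_sub_add_right]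

lemma bil_dn_right (K e g : ℕ → R) (n : ℕ) :
    bil K e (dn g) (n + 1) = bil K e g n := by
  unfold bil
  rw [sum_range_succ]
  simp only [Nat.sub_self, dn_zero, mul_zero, add_zero]
  refine sum_congr rfl fun i hi => ?_
  have : n + 1 - i = (n - i) + 1 := by
    have := mem_range.mp hi
    omega
  rw [this, dn_succ]

lemma bil_congr {K K' e g : ℕ → R} {n : ℕ} (h : ∀ i, i ≤ n → K i = K' i) :
    bil K e g n = bil K' e g n := by
  unfold bil
  refine sum_congr rfl fun i hi => ?_
  rw [h i (by have := mem_range.mp hi; omega)]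

lemma bil_add_left (K e e' g : ℕ → R) (n : ℕ) :
    bil K (fun i => e i + e' i) g n = bil K e g n + bil K e' g n := by
  unfold bil
  rw [← sum_add_distrib]
  refine sum_congr rfl fun i _ => ?_
  ring

lemma bil_add_right (K e g g' : ℕ → R) (n : ℕ) :
    bil K e (fun i => g i + g' i) n = bil K e g n + bil K e g' n := by
  unfold bil
  rw [← sum_add_distrib]
  refine sum_congr rfl fun i _ => ?_
  ring

lemma bil_mul_left (K e g : ℕ → R) (u : R) (n : ℕ) :
    bil K (fun i => u * e i) g n = u * bil K e g n := by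
  unfold bil
  rw [mul_sum]
  refine sum_congr rfl fun i _ => ?_
  ring

lemma bil_mul_right (K e g : ℕ → R) (u : R) (n : ℕ) :
    bil K e (fun i => u * g i) n = u * bil K e g n := by
  unfold bil
  rw [mul_sum]
  refine sum_congr rfl fun i _ => ?_
  ring

lemma bil_K_add (K K' e g : ℕ → R) (n : ℕ) :
    bil (fun i => K i + K' i) e g n = bil K e g n + bil K' e g n := by
  unfold bil
  rw [← sum_add_distrib]
  refine sum_congr rfl fun i _ => ?_
  ring

lemma bil_K_mul (K e g : ℕ → R) (u : R) (n : ℕ) :
    bil (fun i => u * K i) e g n = u * bil K e g n := by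
  unfold bil
  rw [mul_sum]
  refine sum_congr rfl fun i _ => ?_
  ring

lemma bil_delta (e g : ℕ → R) (u : R) (a b : ℕ) :
    bil (fun i => if i = a then u else 0) e g (a + b) = u * e a * g b := by
  unfold bil
  rw [sum_eq_single a]
  · simp
  · intro i _ hi
    simp [hi]
  · intro h
    exact absurd (mem_range.mpr (by omega)) h

/-- Ring form of the structure constant of the main identity. -/
def kap (q : R) (a b i : ℕ) : R :=
  (qn q b - qn q i) * ((if i < a then 1 else 0) - (if b < i then 1 else 0))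

lemma pow_eq_qn (q : R) (i : ℕ) : q ^ i = 1 + q * qn q i - qn q i := by
  have h1 := qn_succ q i
  have h2 := qn_succ' q i
  linear_combination h2 - h1

lemma kap_top (q : R) (a b i : ℕ) (hi : i ≤ a + b) :
    kap q (a + 1) b (i + 1) + kap q (a + 1) b i
      = kap q a b i + q * kap q (a + 1) (b - 1) i + (if i = a then q ^ a else 0) := by
  have h2 := qn_succ' q i
  have h3 := pow_eq_qn q i
  unfold kap
  rcases Nat.eq_zero_or_pos b with hb0 | hb0
  · subst hb0
    have hia : i ≤ a := by omega
    rcases Nat.eq_zero_or_pos i with hi0 | hi0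
    · subst hi0
      rcases Nat.eq_zero_or_pos a with ha0 | ha0
      · subst ha0
        simp [qn]
      · have : ¬ (0 = a) := by omega
        simp [qn, ha0, this]
    · rcases Nat.lt_or_ge i a with h | h
      · have h5 : i ≠ a := by omega
        have h6 : i ≤ a := by omega
        simp [h, hi0, h5, h6]
      · have h5 : i = a := by omega
        subst h5
        simp [hi0, qn_succ]
  · obtain ⟨c, rfl⟩ : ∃ c, b = c + 1 := ⟨b - 1, by omega⟩
    simp only [Nat.add_sub_cancel]
    have h1 := qn_succ' q c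
    rcases lt_trichotomy i a with ha | ha | ha <;> rcases lt_trichotomy i (c + 1) with hb | hb | hb
    all_goals first | subst ha | skip
    all_goals first | subst hb | skip
    all_goals (split_ifs <;> first | omega | (simp only [h2, h3, h1]; ring))

lemma kap_bot (q : R) (a b i : ℕ) (hi : i ≤ a + b) :
    kap q (a + 1) b (i + 1) + q * kap q (a + 1) b i
      = q * kap q a b i + q * kap q (a + 1) (b - 1) i + (if i = a then q ^ b else 0) := by
  have h2 := qn_succ' q i
  have h3 := pow_eq_qn q i
  unfold kap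
  rcases Nat.eq_zero_or_pos b with hb0 | hb0
  · subst hb0
    have hia : i ≤ a := by omega
    rcases Nat.eq_zero_or_pos i with hi0 | hi0
    · subst hi0
      rcases Nat.eq_zero_or_pos a with ha0 | ha0
      · subst ha0
        simp [qn]
      · have : ¬ (0 = a) := by omega
        simp [qn, ha0, this]
    · rcases Nat.lt_or_ge i a with h | h
      · have h5 : i ≠ a := by omega
        have h6 : i ≤ a := by omega
        simp [h, hi0, h5, h6]
      · have h5 : i = a := by omega
        subst h5
        simp [hi0]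
        linear_combination h2
  · obtain ⟨c, rfl⟩ : ∃ c, b = c + 1 := ⟨b - 1, by omega⟩
    simp only [Nat.add_sub_cancel]
    have h1 := qn_succ' q c
    have h4 := pow_eq_qn q (c + 1)
    rcases lt_trichotomy i a with ha | ha | ha <;> rcases lt_trichotomy i (c + 1) with hb | hb | hb
    all_goals first | subst ha | skip
    all_goals first | subst hb | skip
    all_goals (split_ifs <;> first | omega | (simp only [h2, h3, h4, h1]; ring))

/-- The structure constant as a polynomial with natural coefficients. -/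
noncomputable def kapN (a b i : ℕ) : Polynomial ℕ :=
  if i < a ∧ i ≤ b then Polynomial.X ^ i * qn Polynomial.X (b - i)
  else if a ≤ i ∧ b < i then Polynomial.X ^ b * qn Polynomial.X (i - b)
  else 0

lemma map_kapN (φ : Polynomial ℕ →+* R) (a b i : ℕ) :
    φ (kapN a b i) = kap (φ Polynomial.X) a b i := by
  unfold kapN kap
  by_cases h1 : i < a ∧ i ≤ b
  · have h3 : ¬ b < i := by omega
    rw [if_pos h1, map_mul, map_pow, map_qn, if_pos h1.1, if_neg h3]
    have := qn_add (φ Polynomial.X) i (b - i)
    rw [Nat.add_sub_cancel' h1.2] at this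
    rw [this]
    ring
  · rw [if_neg h1]
    by_cases h2 : a ≤ i ∧ b < i
    · have h3 : ¬ i < a := by omega
      rw [if_pos h2, map_mul, map_pow, map_qn, if_neg h3, if_pos h2.2]
      have := qn_add (φ Polynomial.X) b (i - b)
      rw [Nat.add_sub_cancel' h2.2.le] at this
      rw [this]
      ring
    · rw [if_neg h2, map_zero]
      have h4 : (i < a) ↔ (b < i) := by omega
      by_cases h5 : i < a
      · rw [if_pos h5, if_pos (h4.mp h5)]
        ring
      · rw [if_neg h5, if_neg (fun h => h5 (h4.mpr h))]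
        ring

end basic

section esy

variable {κ R : Type*} [LinearOrder κ] [CommRing R]

/-- Elementary symmetric sum of the weights `w` over `V`. -/
def esy (V : Finset κ) (w : κ → R) (k : ℕ) : R := ∑ S ∈ V.powersetCard k, ∏ p ∈ S, w p

@[simp] lemma esy_zero (V : Finset κ) (w : κ → R) : esy V w 0 = 1 := by
  simp [esy]

lemma esy_insert {V : Finset κ} {p : κ} (hp : p ∉ V) (w : κ → R) (k : ℕ) :
    esy (insert p V) w k = esy V w k + w p * dn (esy V w) k := by
  cases k with
  | zero => simp
  | succ k =>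
    unfold esy
    rw [powersetCard_succ_insert hp, sum_union, sum_image, dn_succ, mul_sum]
    · congr 1
      refine sum_congr rfl fun S hS => ?_
      rw [prod_insert]
      intro h
      exact hp ((mem_powersetCard.mp hS).1 h)
    · intro S hS S' hS' h
      have h1 : p ∉ S := fun h' => hp ((mem_powersetCard.mp hS).1 h')
      have h2 : p ∉ S' := fun h' => hp ((mem_powersetCard.mp hS').1 h')
      have := congrArg (fun X => erase X p) h
      simpa [erase_insert h1, erase_insert h2] using this
    · rw [disjoint_left]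
      intro S hS hS'
      obtain ⟨S', _, rfl⟩ := mem_image.mp hS'
      exact hp ((mem_powersetCard.mp hS).1 (mem_insert_self p S'))

lemma esy_congr {V : Finset κ} {w w' : κ → R} (h : ∀ p ∈ V, w p = w' p) (k : ℕ) :
    esy V w k = esy V w' k := by
  unfold esy
  refine sum_congr rfl fun S hS => prod_congr rfl fun p hp => h p ?_
  exact (mem_powersetCard.mp hS).1 hp

lemma esy_const_mul (V : Finset κ) (w : κ → R) (u : R) (k : ℕ) :
    esy V (fun p => u * w p) k = u ^ k * esy V w k := by
  unfold esy
  rw [mul_sum]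
  refine sum_congr rfl fun S hS => ?_
  rw [prod_mul_distrib, prod_const, (mem_powersetCard.mp hS).2]

lemma esy_eq_zero {V : Finset κ} (w : κ → R) {k : ℕ} (h : V.card < k) : esy V w k = 0 := by
  unfold esy
  rw [powersetCard_eq_empty.mpr h, sum_empty]

variable (q : R) (t : κ → R)

def w1 (x p : κ) : R := (if p < x then q else 1) * t p

def w2 (x c p : κ) : R := (if p < c then q else 1) * (if x < p then q else 1) * t p

def Pg (U : Finset κ) (x : κ) (a : ℕ) : R := esy (U.erase x) (w1 q t x) a

def Qg (U : Finset κ) (x c : κ) (b : ℕ) : R := esy ((U.erase x).erase c) (w2 q t x c) b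

def Tg (U : Finset κ) (c : κ) (a b : ℕ) : R := ∑ x ∈ U, t x * Pg q t U x a * Qg q t U x c b

lemma Pg_insert {U : Finset κ} {p x : κ} (hp : p ∉ U) (hx : x ∈ U) (a : ℕ) :
    Pg q t (insert p U) x a = Pg q t U x a + w1 q t x p * dn (Pg q t U x) a := by
  have hne : p ≠ x := fun h => hp (h ▸ hx)
  have h1 : p ∉ U.erase x := fun h => hp (mem_of_mem_erase h)
  have hfun : Pg q t U x = esy (U.erase x) (w1 q t x) := rfl
  rw [hfun]
  unfold Pg
  rw [erase_insert_of_ne hne, esy_insert h1]

lemma Qg_insert {U : Finset κ} {p x c : κ} (hp : p ∉ U) (hx : x ∈ U) (hc : p ≠ c) (b : ℕ) :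
    Qg q t (insert p U) x c b = Qg q t U x c b + w2 q t x c p * dn (Qg q t U x c) b := by
  have hne : p ≠ x := fun h => hp (h ▸ hx)
  have h1 : p ∉ (U.erase x).erase c := fun h => hp (mem_of_mem_erase (mem_of_mem_erase h))
  have hfun : Qg q t U x c = esy ((U.erase x).erase c) (w2 q t x c) := rfl
  rw [hfun]
  unfold Qg
  rw [erase_insert_of_ne hne, erase_insert_of_ne hc, esy_insert h1]

lemma Pg_self_top {U : Finset κ} {p : κ} (hp : ∀ y ∈ U, y < p) (a : ℕ) :
    Pg q t (insert p U) p a = q ^ a * esy U t a := by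
  have h0 : p ∉ U := fun h => lt_irrefl _ (hp p h)
  unfold Pg
  rw [erase_insert h0, ← esy_const_mul]
  refine esy_congr (fun y hy => ?_) a
  simp [w1, hp y hy]

lemma Pg_self_bot {U : Finset κ} {p : κ} (hp : ∀ y ∈ U, p < y) (a : ℕ) :
    Pg q t (insert p U) p a = esy U t a := by
  have h0 : p ∉ U := fun h => lt_irrefl _ (hp p h)
  unfold Pg
  rw [erase_insert h0]
  refine esy_congr (fun y hy => ?_) a
  simp [w1, not_lt_of_gt (hp y hy)]

lemma Qg_self_top {U : Finset κ} {p c : κ} (hp : ∀ y ∈ U, y < p) (b : ℕ) :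
    Qg q t (insert p U) p c b = Pg q t U c b := by
  have h0 : p ∉ U := fun h => lt_irrefl _ (hp p h)
  unfold Qg Pg
  rw [erase_insert h0]
  refine esy_congr (fun y hy => ?_) b
  simp [w1, w2, not_lt_of_gt (hp y (mem_of_mem_erase hy))]

lemma Qg_self_bot {U : Finset κ} {p c : κ} (hp : ∀ y ∈ U, p < y) (b : ℕ) :
    Qg q t (insert p U) p c b = q ^ b * Pg q t U c b := by
  have h0 : p ∉ U := fun h => lt_irrefl _ (hp p h)
  unfold Qg Pg
  rw [erase_insert h0, ← esy_const_mul]
  refine esy_congr (fun y hy => ?_) b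
  simp only [w1, w2, hp y (mem_of_mem_erase hy), if_true]
  ring

lemma dn_sum_left {ι : Type*} (s : Finset ι) (f g : ι → ℕ → R) (u : ι → R) (a b : ℕ) :
    ∑ x ∈ s, u x * dn (f x) a * g x b = dn (fun a => ∑ x ∈ s, u x * f x a * g x b) a := by
  cases a <;> simp

lemma dn_sum_right {ι : Type*} (s : Finset ι) (f g : ι → ℕ → R) (u : ι → R) (a b : ℕ) :
    ∑ x ∈ s, u x * f x a * dn (g x) b = dn (fun b => ∑ x ∈ s, u x * f x a * g x b) b := by
  cases b <;> simp

lemma dn_sum_both {ι : Type*} (s : Finset ι) (f g : ι → ℕ → R) (u : ι → R) (a b : ℕ) :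
    ∑ x ∈ s, u x * dn (f x) a * dn (g x) b
      = dn (fun a => dn (fun b => ∑ x ∈ s, u x * f x a * g x b) b) a := by
  cases a <;> cases b <;> simp

lemma Tg_insert {U : Finset κ} {p c : κ} (hp : p ∉ U) (hc : p ≠ c) (τ ε₁ ε₂ : R)
    (h1 : ∀ x ∈ U, w1 q t x p = ε₁ * τ) (h2 : ∀ x ∈ U, w2 q t x c p = ε₂ * τ) (a b : ℕ) :
    Tg q t (insert p U) c a b
      = Tg q t U c a b + ε₁ * τ * dn (fun a => Tg q t U c a b) a
        + ε₂ * τ * dn (fun b => Tg q t U c a b) b
        + ε₁ * ε₂ * τ ^ 2 * dn (fun a => dn (fun b => Tg q t U c a b) b) a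
        + t p * Pg q t (insert p U) p a * Qg q t (insert p U) p c b := by
  unfold Tg
  rw [sum_insert hp]
  have e1 := dn_sum_left U (fun x => Pg q t U x) (fun x => Qg q t U x c) t a b
  have e2 := dn_sum_right U (fun x => Pg q t U x) (fun x => Qg q t U x c) t a b
  have e3 := dn_sum_both U (fun x => Pg q t U x) (fun x => Qg q t U x c) t a b
  rw [← e1, ← e2, ← e3]
  have key : ∑ x ∈ U, t x * Pg q t (insert p U) x a * Qg q t (insert p U) x c b
      = ∑ x ∈ U, t x * Pg q t U x a * Qg q t U x c b
        + ε₁ * τ * ∑ x ∈ U, t x * dn (Pg q t U x) a * Qg q t U x c b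
        + ε₂ * τ * ∑ x ∈ U, t x * Pg q t U x a * dn (Qg q t U x c) b
        + ε₁ * ε₂ * τ ^ 2 * ∑ x ∈ U, t x * dn (Pg q t U x) a * dn (Qg q t U x c) b := by
    simp only [mul_sum, ← sum_add_distrib]
    refine sum_congr rfl fun x hx => ?_
    rw [Pg_insert q t hp hx, Qg_insert q t hp hx hc, h1 x hx, h2 x hx]
    ring
  rw [key]
  ring

/-- One insertion step for the main identities, abstracted over sequences and constants. -/
lemma bil_step (e g : ℕ → R) (Tv Tn : ℕ → ℕ → R) (τ ε : R) (stuff : ℕ → ℕ → R)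
    (K KA KB : ℕ → ℕ → ℕ → R)
    (IH : ∀ a b, Tv a b = bil (K a b) e g (a + b + 1))
    (hT : ∀ a b, Tn a b = Tv a b + ε * τ * dn (fun a => Tv a b) a
        + q * τ * dn (fun b => Tv a b) b
        + ε * q * τ ^ 2 * dn (fun a => dn (fun b => Tv a b) b) a
        + τ * stuff a b * e a * g b)
    (hA : ∀ a b, dn (fun a => Tv a b) a = bil (KA a b) e g (a + b))
    (hB : ∀ a b, dn (fun b => Tv a b) b = bil (KB a b) e g (a + b))
    (hC : ∀ a b, bil (K a b) (dn e) (dn g) (a + b + 1)
      = q * dn (fun a => dn (fun b => Tv a b) b) a)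
    (hk : ∀ a b i, i ≤ a + b → K a b (i + 1) + ε * K a b i
      = ε * KA a b i + q * KB a b i + (if i = a then stuff a b else 0))
    (a b : ℕ) :
    Tn a b = bil (K a b) (fun k => e k + τ * dn e k)
      (fun k => g k + ε * τ * dn g k) (a + b + 1) := by
  have hR : bil (K a b) (fun k => e k + τ * dn e k)
      (fun k => g k + ε * τ * dn g k) (a + b + 1)
      = bil (K a b) e g (a + b + 1)
        + τ * bil (K a b) (dn e) g (a + b + 1)
        + ε * τ * bil (K a b) e (dn g) (a + b + 1)
        + ε * τ * τ * bil (K a b) (dn e) (dn g) (a + b + 1) := by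
    rw [bil_add_left, bil_add_right, bil_add_right, bil_mul_left, bil_mul_left, bil_mul_right,
      bil_mul_right]
    ring
  rw [hR, hC, bil_dn_left, bil_dn_right, hT, hA, hB, IH a b]
  have hkey : bil (fun i => K a b (i + 1)) e g (a + b)
      + ε * bil (K a b) e g (a + b)
      = ε * bil (KA a b) e g (a + b) + q * bil (KB a b) e g (a + b)
        + stuff a b * e a * g b := by
    rw [← bil_K_mul, ← bil_K_add, ← bil_K_mul, ← bil_K_mul, ← bil_delta e g (stuff a b) a b,
      ← bil_K_add, ← bil_K_add]
    refine bil_congr fun i hi => ?_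
    exact hk a b i hi
  linear_combination (-τ) * hkey

lemma bil_eq_zero_of {K e g : ℕ → R} {n : ℕ} (h : ∀ i, i ≤ n → K i = 0) : bil K e g n = 0 := by
  unfold bil
  refine sum_eq_zero fun i hi => ?_
  rw [h i (by have := mem_range.mp hi; omega)]
  ring

/-- The induction scheme: grow a set containing `c` by new maxima above `c`, then by new minima. -/
lemma insertion_induction (c : κ) (Pr : Finset κ → Prop) (base : Pr {c})
    (top : ∀ U M, c ∈ U → (∀ y ∈ U, y < M) → c < M → Pr U → Pr (insert M U))
    (bot : ∀ U m, c ∈ U → (∀ y ∈ U, m < y) → m < c → Pr U → Pr (insert m U))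
    (U : Finset κ) (hc : c ∈ U) : Pr U := by
  induction' hn : U.card using Nat.strong_induction_on with n ih generalizing U
  by_cases hU : ∃ x ∈ U, x ≠ c
  · by_cases hcm : ∃ x ∈ U, c < x
    · obtain ⟨x₀, hx₀, hcx⟩ := hcm
      have hMU : U.max' ⟨x₀, hx₀⟩ ∈ U := U.max'_mem _
      have hcM : c < U.max' ⟨x₀, hx₀⟩ := lt_of_lt_of_le hcx (U.le_max' _ hx₀)
      have hUins : U = insert (U.max' ⟨x₀, hx₀⟩) (U.erase (U.max' ⟨x₀, hx₀⟩)) :=
        (insert_erase hMU).symm
      have hcU' : c ∈ U.erase (U.max' ⟨x₀, hx₀⟩) := mem_erase.mpr ⟨ne_of_lt hcM, hc⟩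
      have hlt : ∀ y ∈ U.erase (U.max' ⟨x₀, hx₀⟩), y < U.max' ⟨x₀, hx₀⟩ := fun y hy =>
        lt_of_le_of_ne (U.le_max' _ (mem_of_mem_erase hy)) (ne_of_mem_erase hy)
      have hcard : (U.erase (U.max' ⟨x₀, hx₀⟩)).card < n := by
        rw [← hn]
        exact card_erase_lt_of_mem hMU
      rw [hUins]
      exact top _ _ hcU' hlt hcM (ih _ hcard _ hcU' rfl)
    · push Not at hcm
      obtain ⟨x₀, hx₀, hxc⟩ := hU
      have hmU : U.min' ⟨x₀, hx₀⟩ ∈ U := U.min'_mem _
      have hmc : U.min' ⟨x₀, hx₀⟩ < c :=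
        lt_of_le_of_lt (U.min'_le _ hx₀) (lt_of_le_of_ne (hcm x₀ hx₀) hxc)
      have hUins : U = insert (U.min' ⟨x₀, hx₀⟩) (U.erase (U.min' ⟨x₀, hx₀⟩)) :=
        (insert_erase hmU).symm
      have hcU' : c ∈ U.erase (U.min' ⟨x₀, hx₀⟩) := mem_erase.mpr ⟨ne_of_gt hmc, hc⟩
      have hlt : ∀ y ∈ U.erase (U.min' ⟨x₀, hx₀⟩), U.min' ⟨x₀, hx₀⟩ < y := fun y hy =>
        lt_of_le_of_ne (U.min'_le _ (mem_of_mem_erase hy)) (ne_of_mem_erase hy).symm
      have hcard : (U.erase (U.min' ⟨x₀, hx₀⟩)).card < n := by
        rw [← hn]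
        exact card_erase_lt_of_mem hmU
      rw [hUins]
      exact bot _ _ hcU' hlt hmc (ih _ hcard _ hcU' rfl)
  · push Not at hU
    have hUc : U = {c} := by
      ext x
      simp only [mem_singleton]
      exact ⟨hU x, fun h => h ▸ hc⟩
    rw [hUc]
    exact base

lemma Pg_singleton (c : κ) (k : ℕ) : Pg q t ({c} : Finset κ) c k = if k = 0 then 1 else 0 := by
  unfold Pg
  rw [erase_singleton]
  cases k with
  | zero => simp
  | succ k =>
    rw [esy_eq_zero _ (by simp)]
    simp

lemma Qg_singleton (c : κ) (k : ℕ) : Qg q t ({c} : Finset κ) c c k = if k = 0 then 1 else 0 := by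
  unfold Qg
  rw [erase_singleton, erase_empty]
  cases k with
  | zero => simp
  | succ k =>
    rw [esy_eq_zero _ (by simp)]
    simp

lemma esy_singleton_one (c : κ) : esy ({c} : Finset κ) t 1 = t c := by
  have h0 : ({c} : Finset κ) = insert c ∅ := by simp
  rw [h0, esy_insert (notMem_empty c), dn_succ, esy_zero, esy_eq_zero _ (by simp)]
  simp

lemma Tg_A (e g : ℕ → R) (Tv : ℕ → ℕ → R)
    (IH : ∀ a b, Tv a b = bil (kap q (a + 1) b) e g (a + b + 1)) (a b : ℕ) :
    dn (fun a => Tv a b) a = bil (kap q a b) e g (a + b) := by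
  cases a with
  | zero =>
    rw [dn_zero]
    refine (bil_eq_zero_of fun i hi => ?_).symm
    have : ¬ b < i := by omega
    simp [kap, this]
  | succ a =>
    rw [dn_succ, IH]
    congr 1
    omega

lemma Tg_B (e g : ℕ → R) (Tv : ℕ → ℕ → R)
    (IH : ∀ a b, Tv a b = bil (kap q (a + 1) b) e g (a + b + 1)) (a b : ℕ) :
    dn (fun b => Tv a b) b = bil (kap q (a + 1) (b - 1)) e g (a + b) := by
  cases b with
  | zero =>
    rw [dn_zero]
    refine (bil_eq_zero_of fun i hi => ?_).symm
    rcases Nat.eq_zero_or_pos i with h | h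
    · subst h
      simp [kap]
    · have h2 : i < a + 1 := by omega
      simp [kap, h, h2]
  | succ b =>
    rw [dn_succ, IH]
    rfl

lemma Tg_C (e g : ℕ → R) (Tv : ℕ → ℕ → R)
    (IH : ∀ a b, Tv a b = bil (kap q (a + 1) b) e g (a + b + 1)) (a b : ℕ) :
    bil (kap q (a + 1) b) (dn e) (dn g) (a + b + 1)
      = q * dn (fun a => dn (fun b => Tv a b) b) a := by
  rw [bil_dn_left]
  cases a with
  | zero =>
    rw [dn_zero, mul_zero]
    cases b with
    | zero => simp [bil]
    | succ b =>
      have h : 0 + (b + 1) = (0 + b) + 1 := by omega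
      rw [h, bil_dn_right]
      refine bil_eq_zero_of fun i hi => ?_
      have h2 : ¬ b + 1 < i + 1 := by omega
      simp [kap, h2]
  | succ a =>
    cases b with
    | zero =>
      rw [dn_succ, dn_zero, mul_zero]
      have h : a + 1 + 0 = a + 1 := by omega
      rw [h, bil_dn_right]
      refine bil_eq_zero_of fun i hi => ?_
      have h1 : i + 1 < a + 1 + 1 := by omega
      simp [kap, h1]
    | succ b =>
      rw [dn_succ, dn_succ, IH]
      have h : a + 1 + (b + 1) = (a + b + 1) + 1 := by omega
      rw [h, bil_dn_right, ← bil_K_mul]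
      refine bil_congr fun i _ => ?_
      have h1 := qn_succ' q b
      have h2 := qn_succ' q i
      simp only [kap, Nat.add_lt_add_iff_right, h1, h2]
      ring

lemma Tc_A (e g : ℕ → R) (Tv : ℕ → ℕ → R)
    (IH : ∀ a b, Tv a b = bil (kap q (a + 1) (b + 1)) e g (a + b + 1)) (a b : ℕ) :
    dn (fun a => Tv a b) a = bil (kap q a (b + 1)) e g (a + b) := by
  cases a with
  | zero =>
    rw [dn_zero]
    refine (bil_eq_zero_of fun i hi => ?_).symm
    have : ¬ b + 1 < i := by omega
    simp [kap, this]
  | succ a =>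
    rw [dn_succ, IH]
    congr 1
    omega

lemma Tc_B (e g : ℕ → R) (Tv : ℕ → ℕ → R)
    (IH : ∀ a b, Tv a b = bil (kap q (a + 1) (b + 1)) e g (a + b + 1)) (a b : ℕ) :
    dn (fun b => Tv a b) b = bil (kap q (a + 1) b) e g (a + b) := by
  cases b with
  | zero =>
    rw [dn_zero]
    refine (bil_eq_zero_of fun i hi => ?_).symm
    rcases Nat.eq_zero_or_pos i with h | h
    · subst h
      simp [kap]
    · have h2 : i < a + 1 := by omega
      simp [kap, h, h2]
  | succ b =>
    rw [dn_succ, IH]
    rfl

lemma Tc_C (e g : ℕ → R) (Tv : ℕ → ℕ → R)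
    (IH : ∀ a b, Tv a b = bil (kap q (a + 1) (b + 1)) e g (a + b + 1)) (a b : ℕ) :
    bil (kap q (a + 1) (b + 1)) (dn e) (dn g) (a + b + 1)
      = q * dn (fun a => dn (fun b => Tv a b) b) a := by
  rw [bil_dn_left]
  cases a with
  | zero =>
    rw [dn_zero, mul_zero]
    cases b with
    | zero => simp [bil]
    | succ b =>
      have h : 0 + (b + 1) = (0 + b) + 1 := by omega
      rw [h, bil_dn_right]
      refine bil_eq_zero_of fun i hi => ?_
      have h2 : ¬ b + 1 + 1 < i + 1 := by omega
      simp [kap, h2]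
  | succ a =>
    cases b with
    | zero =>
      rw [dn_succ, dn_zero, mul_zero]
      have h : a + 1 + 0 = a + 1 := by omega
      rw [h, bil_dn_right]
      refine bil_eq_zero_of fun i hi => ?_
      have h1 : i + 1 < a + 1 + 1 := by omega
      rcases Nat.eq_zero_or_pos i with h0 | h0
      · subst h0
        simp [kap]
      · have h3 : 0 + 1 < i + 1 := by omega
        simp [kap, h1, h3]
    | succ b =>
      rw [dn_succ, dn_succ, IH]
      have h : a + 1 + (b + 1) = (a + b + 1) + 1 := by omega
      rw [h, bil_dn_right, ← bil_K_mul]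
      refine bil_congr fun i _ => ?_
      have h1 := qn_succ' q (b + 1)
      have h2 := qn_succ' q i
      simp only [kap, Nat.add_lt_add_iff_right, h1, h2]
      ring

/-- The sum over `x` different from `c`, used for a block whose last vertex is adjacent to the
cut vertex. -/
def Tc (U : Finset κ) (c : κ) (a b : ℕ) : R :=
  ∑ x ∈ U.erase c, (if x < c then q else 1) * t x * Pg q t U x a * Qg q t U x c b

lemma Tc_insert {U : Finset κ} {p c : κ} (hp : p ∉ U) (hc : p ≠ c) (τ ε₁ ε₂ : R)
    (h1 : ∀ x ∈ U, w1 q t x p = ε₁ * τ) (h2 : ∀ x ∈ U, w2 q t x c p = ε₂ * τ) (a b : ℕ) :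
    Tc q t (insert p U) c a b
      = Tc q t U c a b + ε₁ * τ * dn (fun a => Tc q t U c a b) a
        + ε₂ * τ * dn (fun b => Tc q t U c a b) b
        + ε₁ * ε₂ * τ ^ 2 * dn (fun a => dn (fun b => Tc q t U c a b) b) a
        + (if p < c then q else 1) * t p * Pg q t (insert p U) p a * Qg q t (insert p U) p c b := by
  unfold Tc
  have hp' : p ∉ U.erase c := fun h => hp (mem_of_mem_erase h)
  rw [erase_insert_of_ne hc, sum_insert hp']
  have e1 := dn_sum_left (U.erase c) (fun x => Pg q t U x) (fun x => Qg q t U x c)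
    (fun x => (if x < c then q else 1) * t x) a b
  have e2 := dn_sum_right (U.erase c) (fun x => Pg q t U x) (fun x => Qg q t U x c)
    (fun x => (if x < c then q else 1) * t x) a b
  have e3 := dn_sum_both (U.erase c) (fun x => Pg q t U x) (fun x => Qg q t U x c)
    (fun x => (if x < c then q else 1) * t x) a b
  rw [← e1, ← e2, ← e3]
  have key : ∑ x ∈ U.erase c, (if x < c then q else 1) * t x * Pg q t (insert p U) x a
        * Qg q t (insert p U) x c b
      = ∑ x ∈ U.erase c, (if x < c then q else 1) * t x * Pg q t U x a * Qg q t U x c b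
        + ε₁ * τ * ∑ x ∈ U.erase c, (if x < c then q else 1) * t x * dn (Pg q t U x) a
            * Qg q t U x c b
        + ε₂ * τ * ∑ x ∈ U.erase c, (if x < c then q else 1) * t x * Pg q t U x a
            * dn (Qg q t U x c) b
        + ε₁ * ε₂ * τ ^ 2 * ∑ x ∈ U.erase c, (if x < c then q else 1) * t x * dn (Pg q t U x) a
            * dn (Qg q t U x c) b := by
    simp only [mul_sum, ← sum_add_distrib]
    refine sum_congr rfl fun x hx => ?_
    have hxU := mem_of_mem_erase hx
    rw [Pg_insert q t hp hxU, Qg_insert q t hp hxU hc, h1 x hxU, h2 x hxU]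
    ring
  rw [key]
  ring

theorem Tg_eq (U : Finset κ) (c : κ) (hc : c ∈ U) (a b : ℕ) :
    Tg q t U c a b = bil (kap q (a + 1) b) (esy U t) (Pg q t U c) (a + b + 1) := by
  revert a b
  refine insertion_induction c (fun U => ∀ a b, Tg q t U c a b
    = bil (kap q (a + 1) b) (esy U t) (Pg q t U c) (a + b + 1)) ?_ ?_ ?_ U hc
  · intro a b
    unfold Tg bil
    rw [sum_singleton, sum_range_succ]
    have hzero : ∑ i ∈ range (a + b + 1), kap q (a + 1) b i * esy {c} t i
        * Pg q t {c} c (a + b + 1 - i) = 0 := by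
      refine sum_eq_zero fun i hi => ?_
      have h1 : a + b + 1 - i ≠ 0 := by
        have := mem_range.mp hi
        omega
      rw [Pg_singleton, if_neg h1, mul_zero]
    rw [hzero, zero_add, Pg_singleton, Pg_singleton, Qg_singleton]
    simp only [Nat.sub_self, if_true, mul_one]
    by_cases hab : a = 0 ∧ b = 0
    · obtain ⟨rfl, rfl⟩ := hab
      simp [kap, qn, esy_singleton_one]
    · have h1 : 1 < a + b + 1 := by omega
      rw [esy_eq_zero t (by simpa using h1), mul_zero]
      by_cases ha : a = 0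
      · have hb : b ≠ 0 := fun h => hab ⟨ha, h⟩
        simp [hb]
      · simp [ha]
  · intro U M hcU hlt hcM IH a b
    have hMU : M ∉ U := fun h => lt_irrefl _ (hlt M h)
    have hE : esy (insert M U) t = fun k => esy U t k + t M * dn (esy U t) k := by
      funext k
      rw [esy_insert hMU]
    have hG : Pg q t (insert M U) c = fun k => Pg q t U c k + 1 * t M * dn (Pg q t U c) k := by
      funext k
      rw [Pg_insert q t hMU hcU]
      simp [w1, not_lt_of_gt hcM]
    rw [hE, hG]
    refine bil_step q (esy U t) (Pg q t U c) (Tg q t U c) (Tg q t (insert M U) c) (t M) 1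
      (fun a _ => q ^ a) (fun a b => kap q (a + 1) b) (fun a b => kap q a b)
      (fun a b => kap q (a + 1) (b - 1)) IH ?_ (Tg_A q _ _ _ IH) (Tg_B q _ _ _ IH)
      (Tg_C q _ _ _ IH) ?_ a b
    · intro a b
      rw [Tg_insert q t hMU (ne_of_gt hcM) (t M) 1 q
        (fun x hx => by simp [w1, not_lt_of_gt (hlt x hx)])
        (fun x hx => by simp [w2, not_lt_of_gt hcM, hlt x hx]),
        Pg_self_top q t hlt, Qg_self_top q t hlt]
      ring
    · intro a b i hi
      have := kap_top q a b i hi
      simpa using this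
  · intro U m hcU hlt hmc IH a b
    have hmU : m ∉ U := fun h => lt_irrefl _ (hlt m h)
    have hE : esy (insert m U) t = fun k => esy U t k + t m * dn (esy U t) k := by
      funext k
      rw [esy_insert hmU]
    have hG : Pg q t (insert m U) c = fun k => Pg q t U c k + q * t m * dn (Pg q t U c) k := by
      funext k
      rw [Pg_insert q t hmU hcU]
      simp [w1, hmc]
    rw [hE, hG]
    refine bil_step q (esy U t) (Pg q t U c) (Tg q t U c) (Tg q t (insert m U) c) (t m) q
      (fun _ b => q ^ b) (fun a b => kap q (a + 1) b) (fun a b => kap q a b)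
      (fun a b => kap q (a + 1) (b - 1)) IH ?_ (Tg_A q _ _ _ IH) (Tg_B q _ _ _ IH)
      (Tg_C q _ _ _ IH) ?_ a b
    · intro a b
      rw [Tg_insert q t hmU (ne_of_lt hmc) (t m) q q
        (fun x hx => by simp [w1, hlt x hx])
        (fun x hx => by simp [w2, hmc, not_lt_of_gt (hlt x hx)]),
        Pg_self_bot q t hlt, Qg_self_bot q t hlt]
      ring
    · intro a b i hi
      exact kap_bot q a b i hi

theorem Tc_eq (U : Finset κ) (c : κ) (hc : c ∈ U) (a b : ℕ) :
    Tc q t U c a b = bil (kap q (a + 1) (b + 1)) (esy U t) (Pg q t U c) (a + b + 1) := by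
  revert a b
  refine insertion_induction c (fun U => ∀ a b, Tc q t U c a b
    = bil (kap q (a + 1) (b + 1)) (esy U t) (Pg q t U c) (a + b + 1)) ?_ ?_ ?_ U hc
  · intro a b
    unfold Tc bil
    rw [erase_singleton, sum_empty, sum_range_succ]
    have hzero : ∑ i ∈ range (a + b + 1), kap q (a + 1) (b + 1) i * esy {c} t i
        * Pg q t {c} c (a + b + 1 - i) = 0 := by
      refine sum_eq_zero fun i hi => ?_
      have h1 : a + b + 1 - i ≠ 0 := by
        have := mem_range.mp hi
        omega
      rw [Pg_singleton, if_neg h1, mul_zero]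
    rw [hzero, zero_add]
    by_cases hab : a = 0 ∧ b = 0
    · obtain ⟨rfl, rfl⟩ := hab
      simp [kap]
    · have h1 : 1 < a + b + 1 := by omega
      rw [esy_eq_zero t (by simpa using h1)]
      simp
  · intro U M hcU hlt hcM IH a b
    have hMU : M ∉ U := fun h => lt_irrefl _ (hlt M h)
    have hE : esy (insert M U) t = fun k => esy U t k + t M * dn (esy U t) k := by
      funext k
      rw [esy_insert hMU]
    have hG : Pg q t (insert M U) c = fun k => Pg q t U c k + 1 * t M * dn (Pg q t U c) k := by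
      funext k
      rw [Pg_insert q t hMU hcU]
      simp [w1, not_lt_of_gt hcM]
    rw [hE, hG]
    refine bil_step q (esy U t) (Pg q t U c) (Tc q t U c) (Tc q t (insert M U) c) (t M) 1
      (fun a _ => q ^ a) (fun a b => kap q (a + 1) (b + 1)) (fun a b => kap q a (b + 1))
      (fun a b => kap q (a + 1) b) IH ?_ (Tc_A q _ _ _ IH) (Tc_B q _ _ _ IH)
      (Tc_C q _ _ _ IH) ?_ a b
    · intro a b
      rw [Tc_insert q t hMU (ne_of_gt hcM) (t M) 1 q
        (fun x hx => by simp [w1, not_lt_of_gt (hlt x hx)])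
        (fun x hx => by simp [w2, not_lt_of_gt hcM, hlt x hx]),
        Pg_self_top q t hlt, Qg_self_top q t hlt]
      simp only [not_lt_of_gt hcM, if_false]
      ring
    · intro a b i hi
      have := kap_top q a (b + 1) i (by omega)
      simpa using this
  · intro U m hcU hlt hmc IH a b
    have hmU : m ∉ U := fun h => lt_irrefl _ (hlt m h)
    have hE : esy (insert m U) t = fun k => esy U t k + t m * dn (esy U t) k := by
      funext k
      rw [esy_insert hmU]
    have hG : Pg q t (insert m U) c = fun k => Pg q t U c k + q * t m * dn (Pg q t U c) k := by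
      funext k
      rw [Pg_insert q t hmU hcU]
      simp [w1, hmc]
    rw [hE, hG]
    refine bil_step q (esy U t) (Pg q t U c) (Tc q t U c) (Tc q t (insert m U) c) (t m) q
      (fun _ b => q ^ (b + 1)) (fun a b => kap q (a + 1) (b + 1)) (fun a b => kap q a (b + 1))
      (fun a b => kap q (a + 1) b) IH ?_ (Tc_A q _ _ _ IH) (Tc_B q _ _ _ IH)
      (Tc_C q _ _ _ IH) ?_ a b
    · intro a b
      rw [Tc_insert q t hmU (ne_of_lt hmc) (t m) q q
        (fun x hx => by simp [w1, hlt x hx])
        (fun x hx => by simp [w2, hmc, not_lt_of_gt (hlt x hx)]),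
        Pg_self_bot q t hlt, Qg_self_bot q t hlt]
      simp only [hmc, if_true]
      ring
    · intro a b i hi
      have := kap_bot q a (b + 1) i (by omega)
      simpa using this

theorem sum_Pg (U : Finset κ) (a : ℕ) :
    ∑ x ∈ U, t x * Pg q t U x a = qn q (a + 1) * esy U t (a + 1) := by
  induction U using Finset.induction_on_max generalizing a with
  | empty =>
    rw [esy_eq_zero _ (by simp)]
    simp
  | insert M U' hlt ih =>
    have hM : M ∉ U' := fun h => lt_irrefl _ (hlt M h)
    rw [sum_insert hM, Pg_self_top q t hlt, esy_insert hM]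
    have hsum : ∑ x ∈ U', t x * Pg q t (insert M U') x a
        = ∑ x ∈ U', t x * Pg q t U' x a + t M * ∑ x ∈ U', t x * dn (Pg q t U' x) a := by
      rw [mul_sum, ← sum_add_distrib]
      refine sum_congr rfl fun x hx => ?_
      rw [Pg_insert q t hM hx]
      simp only [w1, not_lt_of_gt (hlt x hx), if_false]
      ring
    rw [hsum, ih]
    cases a with
    | zero =>
      simp [qn]
      ring
    | succ a =>
      have h2 : ∑ x ∈ U', t x * dn (Pg q t U' x) (a + 1) = qn q (a + 1) * esy U' t (a + 1) := by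
        simp only [dn_succ]
        exact ih a
      rw [h2, dn_succ]
      have h3 := qn_succ q (a + 1)
      linear_combination (t M * esy U' t (a + 1)) * (-h3)

end esy

end Vale.Agent.Lib.P066H
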