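import Vale.Agent.Lib.P066H.Chain

/-!
The positivity cone, the induction along the chain, and the final expansion.
-/

set_option linter.unusedSectionVars false

namespace Vale.Agent.Lib.P066H

open Finset

/-- Target ring in `N` variables. -/
abbrev RN (N : ℕ) := MvPolynomial (Fin N) (Polynomial ℤ)

noncomputable def qN (N : ℕ) : RN N := MvPolynomial.C Polynomial.X

noncomputable def tN (N : ℕ) : Fin N → RN N := MvPolynomial.X

/-- Formal symmetric functions with coefficients in `ℕ[q]`; variable `k` stands for `e_(k+1)`. -/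
abbrev FF := MvPolynomial ℕ (Polynomial ℕ)

noncomputable def coefHom (N : ℕ) : Polynomial ℕ →+* RN N :=
  (MvPolynomial.C).comp (Polynomial.mapRingHom (Nat.castRingHom ℤ))

lemma coefHom_X (N : ℕ) : coefHom N Polynomial.X = qN N := by
  simp [coefHom, qN]

noncomputable def ev (N : ℕ) : FF →+* RN N :=
  MvPolynomial.eval₂Hom (coefHom N) (fun k => MvPolynomial.esymm (Fin N) (Polynomial ℤ) (k + 1))

abbrev WH (w : ℕ) (F : FF) : Prop := MvPolynomial.IsWeightedHomogeneous (fun k : ℕ => k + 1) F w

/-- `e_i` as an element of the formal ring. -/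
noncomputable def Ehat : ℕ → FF
  | 0 => 1
  | i + 1 => MvPolynomial.X i

lemma WH_Ehat : ∀ i, WH i (Ehat i)
  | 0 => MvPolynomial.isWeightedHomogeneous_one _ _
  | i + 1 => MvPolynomial.isWeightedHomogeneous_X _ _ i

lemma ev_Ehat (N : ℕ) : ∀ i, ev N (Ehat i) = esy (univ : Finset (Fin N)) (tN N) i
  | 0 => by simp [Ehat]
  | i + 1 => by
    simp only [Ehat, ev, MvPolynomial.eval₂Hom_X']
    rfl

lemma ev_C (N : ℕ) (p : Polynomial ℕ) : ev N (MvPolynomial.C p) = coefHom N p := by
  simp [ev]

/-- Abbreviation for the product of `F`, a coefficient and `e_i`. -/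
noncomputable def mulE (F : FF) (p : Polynomial ℕ) (i : ℕ) : FF :=
  F * MvPolynomial.C p * Ehat i

lemma WH_mulE {F : FF} {w : ℕ} (hF : WH w F) (p : Polynomial ℕ) (i : ℕ) :
    WH (w + i) (mulE F p i) := by
  unfold mulE
  have h1 : WH (w + 0) (F * MvPolynomial.C p) :=
    hF.mul (MvPolynomial.isWeightedHomogeneous_C _ p)
  have h2 := h1.mul (WH_Ehat i)
  rwa [add_zero] at h2

/-- A family, in all numbers of variables, of functions of the colour of the last vertex. -/
abbrev Fam := ∀ N : ℕ, Fin N → RN N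

noncomputable def fam (F : FF) (a : ℕ) : Fam :=
  fun N c => ev N F * (tN N c * Pg (qN N) (tN N) univ c a)

def gens (d : ℕ) : Set Fam := {Φ | ∃ F a w, a + 1 + w = d ∧ WH w F ∧ Φ = fam F a}

/-- The positivity cone in degree `d`. -/
noncomputable def cone (d : ℕ) : AddSubmonoid Fam := AddSubmonoid.closure (gens d)

lemma fam_mem {F : FF} {a w d : ℕ} (h : a + 1 + w = d) (hF : WH w F) : fam F a ∈ cone d :=
  AddSubmonoid.subset_closure ⟨F, a, w, h, hF, rfl⟩

lemma fam_mulE_apply (F : FF) (p : Polynomial ℕ) (i b N : ℕ) (c : Fin N) :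
    fam (mulE F p i) b N c = ev N F * coefHom N p * esy univ (tN N) i
      * (tN N c * Pg (qN N) (tN N) univ c b) := by
  unfold fam mulE
  rw [map_mul, map_mul, ev_C, ev_Ehat]

noncomputable def TransF (s k : ℕ) (Φ : Fam) : Fam :=
  fun N c => Trans (qN N) (tN N) s k (Φ N) c

lemma TransF_zero (s k : ℕ) : TransF s k 0 = 0 := by
  funext N c
  simp [TransF, Trans]

lemma TransF_add (s k : ℕ) (Φ Φ' : Fam) : TransF s k (Φ + Φ') = TransF s k Φ + TransF s k Φ' := by
  funext N c
  simp only [TransF, Trans, Pi.add_apply]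
  rw [← mul_add, ← sum_add_distrib]
  congr 1
  refine sum_congr rfl fun z _ => ?_
  ring

lemma map_beta_kap (N s k a b i : ℕ) :
    coefHom N (betaq Polynomial.X s k * kapN a b i)
      = betaq (qN N) s k * kap (qN N) a b i := by
  rw [map_mul, map_betaq, map_kapN, coefHom_X]

lemma TransF_gen_le (s k : ℕ) (hs : s ≤ k) (F : FF) (a : ℕ) :
    TransF s k (fam F a)
      = fam (mulE F (alphaq Polynomial.X s k * qn Polynomial.X (a + 1)) (a + 1)) k
        + ∑ i ∈ range (a + k + 1 + 1),
            fam (mulE F (betaq Polynomial.X s k * kapN (a + 1) k i) i) (a + k + 1 - i) := by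
  funext N c
  simp only [Pi.add_apply, Finset.sum_apply, fam_mulE_apply, TransF]
  rw [map_mul, map_alphaq, map_qn, coefHom_X]
  simp only [map_beta_kap]
  exact Trans_gen_le (qN N) (tN N) (ev N F) s k a hs c

lemma TransF_gen_gt (s k : ℕ) (hs : k < s) (F : FF) (a : ℕ) :
    TransF s k (fam F a)
      = ∑ i ∈ range (a + k + 1 + 1),
            fam (mulE F (betaq Polynomial.X s k * kapN (a + 1) (k + 1) i) i) (a + k + 1 - i) := by
  funext N c
  simp only [Finset.sum_apply, fam_mulE_apply, TransF]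
  simp only [map_beta_kap]
  exact Trans_gen_gt (qN N) (tN N) (ev N F) s k a hs c

lemma TransF_mem (s k : ℕ) (hs : s ≤ k + 1) {d : ℕ} {Φ : Fam} (hΦ : Φ ∈ cone d) :
    TransF s k Φ ∈ cone (d + k + 1) := by
  unfold cone at hΦ
  induction hΦ using AddSubmonoid.closure_induction with
  | mem Φ h =>
    obtain ⟨F, a, w, had, hF, rfl⟩ := h
    by_cases hsk : s ≤ k
    · rw [TransF_gen_le s k hsk]
      refine add_mem (fam_mem (w := w + (a + 1)) (by omega) (WH_mulE hF _ _)) ?_
      refine sum_mem fun i hi => ?_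
      have := mem_range.mp hi
      exact fam_mem (w := w + i) (by omega) (WH_mulE hF _ _)
    · rw [TransF_gen_gt s k (by omega)]
      refine sum_mem fun i hi => ?_
      have := mem_range.mp hi
      exact fam_mem (w := w + i) (by omega) (WH_mulE hF _ _)
  | zero =>
    rw [TransF_zero]
    exact zero_mem _
  | add x y _ _ hx hy =>
    rw [TransF_add]
    exact add_mem hx hy

theorem chain_rep : ∀ L : List (ℕ × ℕ), ValidChain L →
    ∃ Φ ∈ cone (chainLast L + 1), ∀ N, Rep (qN N) (tN N) (hChain L) (chainLast L) (Φ N)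
  | [], _ => by
    refine ⟨fam 1 0, fam_mem (w := 0) (by simp [chainLast]) (MvPolynomial.isWeightedHomogeneous_one _ _), ?_⟩
    intro N ρ
    have h1 : ∀ f : Fin 1 → Fin N,
        wt (qN N) (tN N) (hChain []) 1 f * ρ (f (Fin.last 0))
          = fam 1 0 N (f 0) * ρ (f 0) := by
      intro f
      have h2 : Pg (qN N) (tN N) univ (f 0) 0 = 1 := esy_zero _ _
      simp [wt, fam, h2]
    change ∑ f : Fin 1 → Fin N, wt (qN N) (tN N) (hChain []) 1 f * ρ (f (Fin.last 0)) = _
    rw [sum_congr rfl (fun f _ => h1 f)]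
    exact Fintype.sum_equiv (Equiv.funUnique (Fin 1) (Fin N)) _ _ (fun f => rfl)
  | (m, s) :: L, hL => by
    obtain ⟨hL', hm, hs⟩ := hL
    obtain ⟨k, rfl⟩ : ∃ k, m = k + 1 := ⟨m - 1, by omega⟩
    obtain ⟨Φ, hΦ, hRep⟩ := chain_rep L hL'
    have hbound := (hChain_spec L hL').1
    refine ⟨TransF s k Φ, ?_, ?_⟩
    · have h1 : chainLast ((k + 1, s) :: L) + 1 = chainLast L + 1 + k + 1 := by
        simp only [chainLast]
        omega
      rw [h1]
      exact TransF_mem s k hs hΦ
    · intro N
      refine Rep_block (qN N) (tN N) (hChain L) (hChain ((k + 1, s) :: L)) (chainLast L)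
        (chainLast ((k + 1, s) :: L)) k s (by simp only [chainLast]; omega) ?_ ?_ ?_ ?_ (Φ N) (hRep N)
      · intro i j hij hj
        rw [hChain_lt_of_lt _ _ _ _ (by omega)]
      · intro i j hi hj
        rw [hChain_lt_of_lt _ _ _ _ hi]
        have := (hbound i hi.le).2
        omega
      · intro b
        rw [hChain_cut]
        omega
      · intro a b hab hb
        rw [hChain_block _ _ _ _ (by omega) (by omega)]
        omega

theorem cone_sum {d : ℕ} {Φ : Fam} (hΦ : Φ ∈ cone d) :
    ∃ F : FF, WH d F ∧ ∀ N, ∑ c, Φ N c = ev N F := by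
  unfold cone at hΦ
  induction hΦ using AddSubmonoid.closure_induction with
  | mem Φ h =>
    obtain ⟨F, a, w, had, hF, rfl⟩ := h
    refine ⟨mulE F (qn Polynomial.X (a + 1)) (a + 1), ?_, ?_⟩
    · have := WH_mulE hF (qn Polynomial.X (a + 1)) (a + 1)
      have h2 : w + (a + 1) = d := by omega
      rwa [h2] at this
    · intro N
      unfold mulE fam
      rw [map_mul, map_mul, ev_C, ev_Ehat, map_qn, coefHom_X]
      exact sum_gen (qN N) (tN N) (ev N F) a
  | zero =>
    exact ⟨0, MvPolynomial.isWeightedHomogeneous_zero _ _ _, fun N => by simp⟩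
  | add x y _ _ hx hy =>
    obtain ⟨F, hF, hF'⟩ := hx
    obtain ⟨G, hG, hG'⟩ := hy
    refine ⟨F + G, hF.add hG, fun N => ?_⟩
    rw [map_add, ← hF', ← hG', ← sum_add_distrib]
    rfl

lemma prod_edge {R : Type*} [CommRing R] (q : R) (h : ℕ → ℕ) {n N : ℕ} (f : Fin n → Fin N)
    (hp : IsProperCol h f) :
    (∏ i : Fin n, ∏ j : Fin n, if i < j ∧ (j : ℕ) ≤ h i then ef q (f i) (f j) else 1)
      = q ^ ascCount h f := by
  have h1 : ∀ i j : Fin n, (if i < j ∧ (j : ℕ) ≤ h i then ef q (f i) (f j) else 1)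
      = if i < j ∧ (j : ℕ) ≤ h i ∧ f i < f j then q else 1 := by
    intro i j
    by_cases h2 : i < j ∧ (j : ℕ) ≤ h i
    · have h3 := hp i j h2.1 h2.2
      simp only [h2.1, h2.2, true_and, if_true, ef, h3, if_false]
    · rw [if_neg h2, if_neg]
      exact fun h3 => h2 ⟨h3.1, h3.2.1⟩
  simp only [h1]
  rw [← Fintype.prod_prod_type' (fun i j : Fin n => if i < j ∧ (j : ℕ) ≤ h i ∧ f i < f j then q else 1),
    prod_ite]
  simp [ascCount]

lemma prod_edge_not {R : Type*} [CommRing R] (q : R) (h : ℕ → ℕ) {n N : ℕ} (f : Fin n → Fin N)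
    (hp : ¬ IsProperCol h f) :
    (∏ i : Fin n, ∏ j : Fin n, if i < j ∧ (j : ℕ) ≤ h i then ef q (f i) (f j) else 1) = 0 := by
  unfold IsProperCol at hp
  push Not at hp
  obtain ⟨i, j, hij, hj, hfe⟩ := hp
  refine prod_eq_zero (mem_univ i) (prod_eq_zero (mem_univ j) ?_)
  simp [hij, hj, ef, hfe]

lemma chromQ_eq (h : ℕ → ℕ) (n N : ℕ) :
    chromQ h n N = ∑ f : Fin n → Fin N, wt (qN N) (tN N) h n f := by
  unfold chromQ wt
  refine sum_congr rfl fun f _ => ?_
  by_cases hp : IsProperCol h f
  · rw [if_pos hp, prod_edge _ h f hp, map_pow]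
    rfl
  · rw [if_neg hp, prod_edge_not _ h f hp, zero_mul]

theorem main_F (L : List (ℕ × ℕ)) (hL : ValidChain L) :
    ∃ F : FF, WH (chainLast L + 1) F ∧
      ∀ N, chromQ (hChain L) (chainLast L + 1) N = ev N F := by
  obtain ⟨Φ, hΦ, hRep⟩ := chain_rep L hL
  obtain ⟨F, hF, hF'⟩ := cone_sum hΦ
  refine ⟨F, hF, fun N => ?_⟩
  rw [chromQ_eq, ← hF']
  have := hRep N (fun _ => 1)
  simpa using this

lemma parts_sum (m : ℕ →₀ ℕ) :
    ((Finsupp.toMultiset m).map (· + 1)).sum = Finsupp.weight (fun k : ℕ => k + 1) m := by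
  induction m using Finsupp.induction_linear with
  | zero => simp
  | add f g hf hg =>
    rw [map_add, map_add, Multiset.map_add, Multiset.sum_add, hf, hg]
  | single a b =>
    rw [Finsupp.toMultiset_single, Multiset.map_nsmul, Multiset.sum_nsmul, Multiset.map_singleton,
      Multiset.sum_singleton, Finsupp.weight_single]

lemma parts_prod {A : Type*} [CommMonoid A] (G : ℕ → A) (m : ℕ →₀ ℕ) :
    ((Finsupp.toMultiset m).map G).prod = ∏ i ∈ m.support, G i ^ m i := by
  change _ = m.prod (fun i r => G i ^ r)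
  induction m using Finsupp.induction_linear with
  | zero => simp
  | add f g hf hg =>
    rw [map_add, Multiset.map_add, Multiset.prod_add, hf, hg,
      Finsupp.prod_add_index' (fun _ => pow_zero _) (fun _ _ _ => pow_add _ _ _)]
  | single a b =>
    rw [Finsupp.toMultiset_single, Multiset.map_nsmul, Multiset.prod_nsmul, Multiset.map_singleton,
      Multiset.prod_singleton]
    rw [Finsupp.prod_single_index (h := fun i r => G i ^ r) (pow_zero (G a))]

open Classical in
/-- The partition associated with an exponent vector. -/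
noncomputable def lam (n : ℕ) (m : ℕ →₀ ℕ) : Nat.Partition n :=
  if h : ((Finsupp.toMultiset m).map (· + 1)).sum = n then
    ⟨(Finsupp.toMultiset m).map (· + 1), by
      intro i hi
      obtain ⟨k, _, rfl⟩ := Multiset.mem_map.mp hi
      omega, h⟩
  else Nat.Partition.indiscrete n

open Classical in
theorem main_partition (n : ℕ) (F : FF) (hF : WH n F) :
    ∃ c : Nat.Partition n → Polynomial ℕ, ∀ N, ev N F = ∑ l : Nat.Partition n,
      MvPolynomial.C ((c l).map (Nat.castRingHom ℤ))
        * (l.parts.map (MvPolynomial.esymm (Fin N) (Polynomial ℤ))).prod := by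
  refine ⟨fun l => ∑ m ∈ F.support.filter (fun m => lam n m = l), F.coeff m, fun N => ?_⟩
  have h0 : ∀ l : Nat.Partition n,
      MvPolynomial.C ((∑ m ∈ F.support.filter (fun m => lam n m = l), F.coeff m).map
          (Nat.castRingHom ℤ))
        * (l.parts.map (MvPolynomial.esymm (Fin N) (Polynomial ℤ))).prod
      = ∑ m ∈ F.support.filter (fun m => lam n m = l), coefHom N (F.coeff m)
          * ∏ i ∈ m.support, (MvPolynomial.esymm (Fin N) (Polynomial ℤ) (i + 1)) ^ m i := by
    intro l
    have h1 : MvPolynomial.C ((∑ m ∈ F.support.filter (fun m => lam n m = l), F.coeff m).map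
          (Nat.castRingHom ℤ))
        = ∑ m ∈ F.support.filter (fun m => lam n m = l), coefHom N (F.coeff m) := by
      rw [Polynomial.map_sum, map_sum]
      rfl
    rw [h1, sum_mul]
    refine sum_congr rfl fun m hm => ?_
    obtain ⟨hm1, hm2⟩ := mem_filter.mp hm
    congr 1
    have hw : ((Finsupp.toMultiset m).map (· + 1)).sum = n := by
      rw [parts_sum]
      exact hF (MvPolynomial.mem_support_iff.mp hm1)
    have hl : l.parts = (Finsupp.toMultiset m).map (· + 1) := by
      rw [← hm2]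
      unfold lam
      rw [dif_pos hw]
    rw [hl, Multiset.map_map]
    exact parts_prod (fun i => MvPolynomial.esymm (Fin N) (Polynomial ℤ) (i + 1)) m
  simp only [h0]
  rw [sum_fiberwise]
  change MvPolynomial.eval₂ (coefHom N) _ F = _
  rw [MvPolynomial.eval₂_eq]

end Vale.Agent.Lib.P066H
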